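import Crest.Agent.R323.Vec

/-!
# R323 / Ball : bounded universal quantifier and primitive recursion

Plan for `ball`.  `hR` gives `β, p, q`.  New unknowns `Option β` (`SF.exF`): `s = x none`, `W b = x (some b)` with
`W b < 2^(s n)`, `s = ∑ b, cd 0 n (dg s (W b))`, and `cd t n P = cd t n Q`, where
`P i = p (elim (i, v) (b ↦ dg s (W b) i))`, `Q i` likewise, `t = cd 0 n P + cd 0 n Q` (`VF.poly`; all `P i, Q i ≤ t < 2^t`, so
the codes agree iff `P i = Q i` for `i < n`, `dg_cd`).  Uniqueness: the digits are the unique witnesses, so `s` is their sum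
and `W b = cd s n _` (`cd_dg`).  Existence: `s` = the sum of all witnesses, `W b = cd s n (w · b)`.
Plan for `natRec`.  `F i = Nat.rec (f z) (G z) i`; `c = F n ↔ ∃ s C, C < 2^(s (n+1)) ∧
s = cd 0 (n+1) (dg s C) ∧ dg s C 0 = f z ∧ (∀ i < n, dg s C (i+1) = G z i (dg s C i)) ∧ c = dg s C n`.
-/

set_option autoImplicit false
set_option linter.unusedSectionVars false

namespace Crest.Agent.R323

variable {γ : Type}

theorem ball_cd_inj {t n : ℕ} {P Q : ℕ → ℕ} (hP : ∀ i < n, P i < 2 ^ t) (hQ : ∀ i < n, Q i < 2 ^ t)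
    (h : cd t n P = cd t n Q) : ∀ i < n, P i = Q i := by
  intro i hi
  have h1 := dg_cd hP i
  have h2 := dg_cd hQ i
  rw [if_pos hi] at h1 h2
  rw [← h1, ← h2, h]

theorem ball_cd_iff (n : ℕ) (P Q : ℕ → ℕ) :
    cd (cd 0 n P + cd 0 n Q) n P = cd (cd 0 n P + cd 0 n Q) n Q ↔ ∀ i < n, P i = Q i := by
  refine ⟨ball_cd_inj (fun i hi => ?_) (fun i hi => ?_), fun h => cd_congr h⟩
  · exact lt_of_le_of_lt ((le_cd 0 P hi).trans (Nat.le_add_right _ _)) Nat.lt_two_pow_self
  · exact lt_of_le_of_lt ((le_cd 0 Q hi).trans (Nat.le_add_left _ _)) Nat.lt_two_pow_self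

theorem ball_eq_of_dg {s n X Y : ℕ} (hX : X < 2 ^ (s * n)) (hY : Y < 2 ^ (s * n))
    (h : ∀ i < n, dg s X i = dg s Y i) : X = Y := by
  rw [← Nat.mod_eq_of_lt hX, ← Nat.mod_eq_of_lt hY, ← cd_dg, ← cd_dg]
  exact cd_congr h

theorem SF.ball {R : ℕ → (γ → ℕ) → Prop}
    (hR : SF fun v : Option γ → ℕ => R (v none) fun i => v (some i)) {n : (γ → ℕ) → ℕ}
    (hn : SFn n) : SF fun v => ∀ i < n v, R i v := by
  classical
  obtain ⟨β, hβ, p, q, hp, hq, H⟩ := hR
  let X : (Option β → ℕ) → (γ → ℕ) → ℕ → (Option γ ⊕ β → ℕ) := fun x v i =>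
    Sum.elim (fun o => o.elim i v) fun b => dg (x none) (x (some b)) i
  let Rel : (Option β → ℕ) → (γ → ℕ) → Prop := fun x v =>
    (∀ b, x (some b) < 2 ^ (x none * n v)) ∧
      x none = ∑ b, cd 0 (n v) (dg (x none) (x (some b))) ∧
      ∀ i < n v, p (X x v i) = q (X x v i)
  have hn' : SFn fun u : γ ⊕ Option β → ℕ => n fun i => u (.inl i) := hn.ren Sum.inl
  have hX : ∀ k, VF (fun u : γ ⊕ Option β → ℕ => n fun i => u (.inl i))
      (fun u i => X (fun k => u (.inr k)) (fun j => u (.inl j)) i k) := by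
    rintro ((_ | j) | b)
    · exact VF.id hn'
    · exact VF.const hn' (SFn.var (Sum.inl j))
    · exact VF.dg hn' (SFn.var (Sum.inr none)) (SFn.var (Sum.inr (some b)))
  have hP := VF.poly hp hn' hX
  have hQ := VF.poly hq hn' hX
  have ht := (hP _ (SFn.const 0)).add (hQ _ (SFn.const 0))
  have h3 := (SF.eq (hP _ ht) (hQ _ ht)).congr fun u => ball_cd_iff _ _ _
  have h1 : SF fun u : γ ⊕ Option β → ℕ => ∀ b, u (.inr (some b)) <
      2 ^ (u (.inr none) * n fun i => u (.inl i)) :=
    SF.all fun b => SF.lt (SFn.var _) ((SFn.var _).mul hn').two_pow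
  have h2 : SF fun u : γ ⊕ Option β → ℕ => u (.inr none) =
      ∑ b, cd 0 (n fun i => u (.inl i)) (dg (u (.inr none)) (u (.inr (some b)))) :=
    SF.eq (SFn.var _) (SFn.sum fun b => hn'.bc (SFn.var _) (SFn.const 0) (SFn.var _))
  have hE := SF.exF (δ := Option β) (R := Rel) (h1.and (h2.and h3)) (by
    rintro v x y ⟨hx1, hx2, hx3⟩ ⟨hy1, hy2, hy3⟩
    have hd : ∀ i < n v, ∀ b, dg (x none) (x (some b)) i = dg (y none) (y (some b)) i := by
      intro i hi b
      exact congrFun ((H fun o => o.elim i v).2 _ _ (hx3 i hi) (hy3 i hi)) b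
    have hs : x none = y none := by
      rw [hx2, hy2]
      exact Finset.sum_congr rfl fun b _ => cd_congr fun i hi => hd i hi b
    funext o
    cases o with
    | none => exact hs
    | some b =>
      refine ball_eq_of_dg (hx1 b) (hs ▸ hy1 b) fun i hi => ?_
      rw [hd i hi b, hs])
  refine hE.congr fun v => ⟨?_, fun h => ?_⟩
  · rintro ⟨x, -, -, hx⟩ i hi
    exact (H fun o => o.elim i v).1.2 ⟨_, hx i hi⟩
  · have hw : ∀ i, ∃ w : β → ℕ, i < n v →
        p (Sum.elim (fun o => o.elim i v) w) = q (Sum.elim (fun o => o.elim i v) w) := by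
      intro i
      by_cases hi : i < n v
      · obtain ⟨w, hw⟩ := (H fun o => o.elim i v).1.1 (h i hi)
        exact ⟨w, fun _ => hw⟩
      · exact ⟨0, fun h' => absurd h' hi⟩
    choose w hw using hw
    set s := ∑ b, cd 0 (n v) (fun i => w i b) with hs
    have hlt : ∀ b, ∀ i < n v, w i b < 2 ^ s := by
      intro b i hi
      refine lt_of_le_of_lt ((le_cd 0 (fun i => w i b) hi).trans ?_) Nat.lt_two_pow_self
      exact Finset.single_le_sum (f := fun b => cd 0 (n v) fun i => w i b)
        (fun _ _ => Nat.zero_le _) (Finset.mem_univ b)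
    have hdg : ∀ b, ∀ i < n v, dg s (cd s (n v) fun i => w i b) i = w i b := by
      intro b i hi
      rw [dg_cd (hlt b), if_pos hi]
    refine ⟨fun o => o.elim s fun b => cd s (n v) fun i => w i b, fun b => cd_lt (hlt b), ?_, ?_⟩
    · exact Finset.sum_congr rfl fun b _ => cd_congr fun i hi => (hdg b i hi).symm
    · intro i hi
      have e : X (fun o => o.elim s fun b => cd s (n v) fun i => w i b) v i =
          Sum.elim (fun o => o.elim i v) (w i) := by
        funext k
        rcases k with k | b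
        · rfl
        · exact hdg b i hi
      rw [e]
      exact hw i hi

/-- primitive recursion with one parameter -/
theorem SFn.natRec {f : ℕ → ℕ} (hf : SFn fun v : Unit → ℕ => f (v ()))
    {G : ℕ → ℕ → ℕ → ℕ} (hG : SFn fun v : Fin 3 → ℕ => G (v 0) (v 1) (v 2))
    {z n : (γ → ℕ) → ℕ} (hz : SFn z) (hn : SFn n) :
    SFn fun v => (Nat.rec (f (z v)) (fun y IH => G (z v) y IH) (n v) : ℕ) := by
  have hG3 : ∀ {δ : Type} {a b c : (δ → ℕ) → ℕ}, SFn a → SFn b → SFn c →
      SFn fun v => G (a v) (b v) (c v) := by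
    intro δ a b c ha hb hc
    exact hG.comp (g := ![a, b, c]) fun i => by fin_cases i; exacts [ha, hb, hc]
  let Rel : (Bool → ℕ) → (Option γ → ℕ) → Prop := fun x v =>
    x false < 2 ^ (x true * (n (fun i => v (some i)) + 1)) ∧
      x true = cd 0 (n (fun i => v (some i)) + 1) (R323.dg (x true) (x false)) ∧
      R323.dg (x true) (x false) 0 = f (z fun i => v (some i)) ∧
      (∀ i < n fun i => v (some i), R323.dg (x true) (x false) (i + 1) =
        G (z fun i => v (some i)) i (R323.dg (x true) (x false) i)) ∧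
      v none = R323.dg (x true) (x false) (n fun i => v (some i))
  have hn' : SFn fun u : Option γ ⊕ Bool → ℕ => n fun i => u (.inl (some i)) :=
    hn.ren fun i => Sum.inl (some i)
  have hz' : SFn fun u : Option γ ⊕ Bool → ℕ => z fun i => u (.inl (some i)) :=
    hz.ren fun i => Sum.inl (some i)
  have hn1 := hn'.add (SFn.const 1)
  have hs : SFn fun u : Option γ ⊕ Bool → ℕ => u (.inr true) := SFn.var _
  have hC : SFn fun u : Option γ ⊕ Bool → ℕ => u (.inr false) := SFn.var _
  have h1 := SF.lt hC (hs.mul hn1).two_pow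
  have h2 := SF.eq hs (hn1.bc hs (SFn.const 0) hC)
  have h3 := SF.eq (hs.dg hC (SFn.const 0)) (hf.comp1 hz')
  have h4 := SF.ball (R := fun i (u : Option γ ⊕ Bool → ℕ) =>
      R323.dg (u (.inr true)) (u (.inr false)) (i + 1) =
        G (z fun i => u (.inl (some i))) i (R323.dg (u (.inr true)) (u (.inr false)) i))
    (SF.eq (hs.weak.dg hC.weak ((SFn.var none).add (SFn.const 1)))
      (hG3 hz'.weak (SFn.var none) (hs.weak.dg hC.weak (SFn.var none)))) hn'
  have h5 := SF.eq (SFn.var (Sum.inl none)) (hs.dg hC hn')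
  have key : ∀ x v, Rel x v → ∀ i ≤ n fun i => v (some i), R323.dg (x true) (x false) i =
      (Nat.rec (f (z fun i => v (some i))) (fun y IH => G (z fun i => v (some i)) y IH) i : ℕ) := by
    rintro x v ⟨-, -, h3, h4, -⟩ i hi
    induction i with
    | zero => exact h3
    | succ i ih => rw [h4 i hi, ih (Nat.le_of_succ_le hi)]
  have hE := SF.exF (δ := Bool) (R := Rel) (h1.and (h2.and (h3.and (h4.and h5)))) (by
    intro v x y hx hy
    have hd : ∀ i < (n fun i => v (some i)) + 1,
        R323.dg (x true) (x false) i = R323.dg (y true) (y false) i := by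
      intro i hi
      rw [key x v hx i (Nat.le_of_lt_succ hi), key y v hy i (Nat.le_of_lt_succ hi)]
    have hs : x true = y true := by
      rw [hx.2.1, hy.2.1]
      exact cd_congr hd
    funext b
    cases b with
    | true => exact hs
    | false =>
      refine ball_eq_of_dg hx.1 (hs ▸ hy.1) fun i hi => ?_
      rw [hd i hi, hs])
  refine hE.congr fun v => ⟨?_, fun h => ?_⟩
  · rintro ⟨x, hx⟩
    exact hx.2.2.2.2.trans (key x v hx _ le_rfl)
  · set N := n fun i => v (some i) with hN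
    set F : ℕ → ℕ := fun i =>
      (Nat.rec (f (z fun i => v (some i))) (fun y IH => G (z fun i => v (some i)) y IH) i : ℕ)
      with hF
    set s := cd 0 (N + 1) F with hs
    have hlt : ∀ i < N + 1, F i < 2 ^ s := fun i hi =>
      lt_of_le_of_lt (le_cd 0 F hi) Nat.lt_two_pow_self
    have hdg : ∀ i < N + 1, R323.dg s (cd s (N + 1) F) i = F i := by
      intro i hi
      rw [dg_cd hlt, if_pos hi]
    refine ⟨fun b => cond b s (cd s (N + 1) F), cd_lt hlt, cd_congr fun i hi => (hdg i hi).symm,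
      hdg 0 (Nat.succ_pos _), fun i hi => ?_, h.trans (hdg N (Nat.lt_succ_self _)).symm⟩
    show R323.dg s (cd s (N + 1) F) (i + 1) = G _ i (R323.dg s (cd s (N + 1) F) i)
    rw [hdg (i + 1) (Nat.succ_lt_succ hi), hdg i (Nat.lt_succ_of_lt hi)]

end Crest.Agent.R323
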