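import Crest.Agent.R323.Defs

/-!
# R323 / Basic : closure properties of single-fold Diophantine relations and functions

Plan.  `and`: unknowns `β₁ ⊕ β₂`, `p₁² + q₁² + p₂² + q₂² = 2 p₁ q₁ + 2 p₂ q₂`.  `exF`: unknowns `δ ⊕ β`.
`comp`: `S (g · v) ↔ ∃ u : α → ℕ, (∀ i, u i = g i v) ∧ S u` (`exF`, `all`, `ren`).  `eq`, `add`, `mul` from `comp` and
`poly`.  `le`: `∃ d, f + d = g`.  `sub`: `c = f - g ↔ ∃ d, c + g = f + d ∧ c * d = 0`.  `div`, `mod`:
`f = q g + r`, `r < g`.  `coprime`: `∃ u < g, f u % g = 1 % g`.  `final`: add one unknown `x` and use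
`p² + q² + x = 2 p q`, then `Fintype.equivFin`, and turn `IsP` into an `MvPolynomial`.
-/

set_option autoImplicit false

namespace Crest.Agent.R323

variable {α γ : Type}

theorem IsP.ren {p : (α → ℕ) → ℕ} (hp : IsP p) (f : α → γ) : IsP fun v : γ → ℕ => p fun i => v (f i) := by
  induction hp with
  | proj i => exact IsP.proj (f i)
  | const c => exact IsP.const c
  | add _ _ ih1 ih2 => exact IsP.add ih1 ih2
  | mul _ _ ih1 ih2 => exact IsP.mul ih1 ih2

theorem SF.congr {S T : (α → ℕ) → Prop} (h : SF S) (e : ∀ v, S v ↔ T v) : SF T := by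
  have : S = T := funext fun v => propext (e v)
  exact this ▸ h

theorem SFn.congr {f g : (α → ℕ) → ℕ} (h : SFn f) (e : ∀ v, f v = g v) : SFn g := by
  have : f = g := funext e
  exact this ▸ h

theorem SF.ren {S : (α → ℕ) → Prop} (h : SF S) (f : α → γ) : SF fun v : γ → ℕ => S fun i => v (f i) := by
  obtain ⟨β, hβ, p, q, hp, hq, H⟩ := h
  refine ⟨β, hβ, _, _, hp.ren (Sum.map f id), hq.ren (Sum.map f id), fun a => ?_⟩
  have e : ∀ w : β → ℕ, (fun i => Sum.elim a w (Sum.map f id i)) =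
      Sum.elim (fun i => a (f i)) w := fun w => by
    funext i; cases i <;> rfl
  simp only [e]
  exact H _

theorem SF.poly {p q : (α → ℕ) → ℕ} (hp : IsP p) (hq : IsP q) : SF fun v => p v = q v := by
  refine ⟨Empty, inferInstance, _, _, hp.ren Sum.inl, hq.ren Sum.inl, fun a => ⟨?_, ?_⟩⟩
  · constructor
    · intro h; exact ⟨fun e => e.elim, h⟩
    · rintro ⟨w, h⟩; exact h
  · intro w w' _ _; exact funext fun e => e.elim

theorem basic_sq (a b c d : ℕ) :
    a * a + b * b + (c * c + d * d) = 2 * (a * b) + 2 * (c * d) ↔ a = b ∧ c = d := by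
  constructor
  · intro h
    have h' : ((a : ℤ) - b) ^ 2 + ((c : ℤ) - d) ^ 2 = 0 := by
      have : (a : ℤ) * a + b * b + (c * c + d * d) = 2 * (a * b) + 2 * (c * d) := by
        exact_mod_cast h
      linarith [this]
    have h1 : ((a : ℤ) - b) ^ 2 = 0 := by nlinarith [sq_nonneg ((a : ℤ) - b), sq_nonneg ((c : ℤ) - d)]
    have h2 : ((c : ℤ) - d) ^ 2 = 0 := by nlinarith [sq_nonneg ((a : ℤ) - b), sq_nonneg ((c : ℤ) - d)]
    have h3 := pow_eq_zero_iff (two_ne_zero) |>.1 h1
    have h4 := pow_eq_zero_iff (two_ne_zero) |>.1 h2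
    constructor <;> omega
  · rintro ⟨rfl, rfl⟩; ring

theorem SF.and {S T : (α → ℕ) → Prop} (hS : SF S) (hT : SF T) : SF fun v => S v ∧ T v := by
  obtain ⟨β, hβ, p, q, hp, hq, H⟩ := hS
  obtain ⟨β', hβ', p', q', hp', hq', H'⟩ := hT
  have a1 := hp.ren (γ := α ⊕ (β ⊕ β')) (Sum.map id Sum.inl)
  have a2 := hq.ren (γ := α ⊕ (β ⊕ β')) (Sum.map id Sum.inl)
  have a3 := hp'.ren (γ := α ⊕ (β ⊕ β')) (Sum.map id Sum.inr)
  have a4 := hq'.ren (γ := α ⊕ (β ⊕ β')) (Sum.map id Sum.inr)
  refine ⟨β ⊕ β', inferInstance, _, _,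
    ((a1.mul a1).add (a2.mul a2)).add ((a3.mul a3).add (a4.mul a4)),
    ((IsP.const 2).mul (a1.mul a2)).add ((IsP.const 2).mul (a3.mul a4)), fun a => ?_⟩
  have e1 : ∀ w : β ⊕ β' → ℕ, (fun i => Sum.elim a w (Sum.map id Sum.inl i)) =
      Sum.elim a (fun i => w (.inl i)) := fun w => by
    funext i; cases i <;> rfl
  have e2 : ∀ w : β ⊕ β' → ℕ, (fun i => Sum.elim a w (Sum.map id Sum.inr i)) =
      Sum.elim a (fun i => w (.inr i)) := fun w => by
    funext i; cases i <;> rfl
  simp only [e1, e2, basic_sq]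
  refine ⟨⟨?_, ?_⟩, ?_⟩
  · rintro ⟨h1, h2⟩
    obtain ⟨w, hw⟩ := (H a).1.1 h1
    obtain ⟨w', hw'⟩ := (H' a).1.1 h2
    exact ⟨Sum.elim w w', hw, hw'⟩
  · rintro ⟨w, h1, h2⟩
    exact ⟨(H a).1.2 ⟨_, h1⟩, (H' a).1.2 ⟨_, h2⟩⟩
  · rintro w w' ⟨h1, h2⟩ ⟨h3, h4⟩
    have k1 := (H a).2 _ _ h1 h3
    have k2 := (H' a).2 _ _ h2 h4
    funext i
    cases i with
    | inl i => exact congrFun k1 i
    | inr i => exact congrFun k2 i

theorem SF.all {ι : Type} [Finite ι] {S : ι → (α → ℕ) → Prop} (h : ∀ i, SF (S i)) :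
    SF fun v => ∀ i, S i v := by
  classical
  have := Fintype.ofFinite ι
  have key : ∀ s : Finset ι, SF fun v => ∀ i ∈ s, S i v := by
    intro s
    induction s using Finset.induction_on with
    | empty => exact (SF.poly (IsP.const 0) (IsP.const 0)).congr fun v => by simp
    | insert a s _ ih => exact ((h a).and ih).congr fun v => by simp
  exact (key Finset.univ).congr fun v => by simp

/-- existential quantifier over a finite, uniquely determined family -/
theorem SF.exF {δ : Type} [Finite δ] {R : (δ → ℕ) → (α → ℕ) → Prop}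
    (h : SF fun v : α ⊕ δ → ℕ => R (fun k => v (.inr k)) fun i => v (.inl i))
    (hu : ∀ v x y, R x v → R y v → x = y) : SF fun v => ∃ x, R x v := by
  have := Fintype.ofFinite δ
  obtain ⟨β, hβ, p, q, hp, hq, H⟩ := h
  refine ⟨δ ⊕ β, inferInstance, _, _, hp.ren (Equiv.sumAssoc α δ β), hq.ren (Equiv.sumAssoc α δ β),
    fun a => ?_⟩
  have e : ∀ w : δ ⊕ β → ℕ, (fun i => Sum.elim a w (Equiv.sumAssoc α δ β i)) =
      Sum.elim (Sum.elim a fun k => w (.inl k)) (fun i => w (.inr i)) := fun w => by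
    funext i; rcases i with (i | i) | i <;> rfl
  simp only [e]
  refine ⟨⟨?_, ?_⟩, ?_⟩
  · rintro ⟨x, hx⟩
    obtain ⟨w, hw⟩ := (H (Sum.elim a x)).1.1 hx
    exact ⟨Sum.elim x w, hw⟩
  · rintro ⟨w, hw⟩
    exact ⟨_, (H _).1.2 ⟨_, hw⟩⟩
  · intro w w' h1 h2
    have k1 : (fun k => w (.inl k)) = fun k => w' (.inl k) :=
      hu a _ _ ((H _).1.2 ⟨_, h1⟩) ((H _).1.2 ⟨_, h2⟩)
    rw [← k1] at h2
    have k2 := (H _).2 _ _ h1 h2
    funext i
    cases i with
    | inl i => exact congrFun k1 i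
    | inr i => exact congrFun k2 i

theorem SF.ex {R : ℕ → (α → ℕ) → Prop}
    (h : SF fun v : Option α → ℕ => R (v none) fun i => v (some i))
    (hu : ∀ v x y, R x v → R y v → x = y) : SF fun v => ∃ x, R x v := by
  have h1 := SF.exF (δ := Unit) (R := fun x v => R (x ()) v)
    (h.ren fun o : Option α => o.elim (Sum.inr ()) Sum.inl)
    (fun v x y hx hy => funext fun _ => hu v _ _ hx hy)
  exact h1.congr fun v => ⟨fun ⟨x, hx⟩ => ⟨_, hx⟩, fun ⟨x, hx⟩ => ⟨fun _ => x, hx⟩⟩

theorem SFn.of_rel {f : (α → ℕ) → ℕ} {R : ℕ → (α → ℕ) → Prop}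
    (h : SF fun v : Option α → ℕ => R (v none) fun i => v (some i))
    (e : ∀ x v, R x v ↔ x = f v) : SFn f := by
  exact h.congr fun v => e _ _

theorem SFn.ren {f : (α → ℕ) → ℕ} (h : SFn f) (r : α → γ) :
    SFn fun v : γ → ℕ => f fun i => v (r i) := by
  exact SF.ren h (Option.map r)

theorem SFn.weak {f : (α → ℕ) → ℕ} (h : SFn f) :
    SFn fun v : Option α → ℕ => f fun i => v (some i) := h.ren some

theorem basic_polyFn {p : (α → ℕ) → ℕ} (hp : IsP p) : SFn p :=
  SF.poly (IsP.proj none) (hp.ren some)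

theorem SFn.var (i : α) : SFn fun v : α → ℕ => v i := by
  exact basic_polyFn (IsP.proj i)

theorem SFn.const (c : ℕ) : SFn fun _ : α → ℕ => c := by
  exact basic_polyFn (IsP.const c)

theorem SF.comp [Finite α] {S : (α → ℕ) → Prop} (h : SF S) {g : α → (γ → ℕ) → ℕ}
    (hg : ∀ i, SFn (g i)) : SF fun v => S fun i => g i v := by
  have h1 := SF.exF (δ := α) (R := fun u v => (∀ i, u i = g i v) ∧ S u)
    (SF.and (SF.all fun i => SF.ren (hg i) fun o : Option γ => o.elim (Sum.inr i) Sum.inl)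
      (h.ren Sum.inr))
    (fun v x y hx hy => funext fun i => (hx.1 i).trans (hy.1 i).symm)
  refine h1.congr fun v => ⟨?_, fun hv => ⟨_, fun _ => rfl, hv⟩⟩
  rintro ⟨x, h1, h2⟩
  rwa [funext h1] at h2

theorem SFn.comp [Finite α] {f : (α → ℕ) → ℕ} (h : SFn f) {g : α → (γ → ℕ) → ℕ}
    (hg : ∀ i, SFn (g i)) : SFn fun v => f fun i => g i v := by
  exact SF.comp (γ := Option γ) h
    (g := fun o v => o.elim (v none) fun i => g i fun j => v (some j))
    (fun o => by
      cases o with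
      | none => exact SFn.var none
      | some i => exact (hg i).weak)

variable {f g : (γ → ℕ) → ℕ}

theorem SFn.comp1 {F : ℕ → ℕ} (h : SFn fun v : Unit → ℕ => F (v ())) (hf : SFn f) :
    SFn fun v => F (f v) := h.comp (g := fun _ => f) fun _ => hf

theorem SF.eq (hf : SFn f) (hg : SFn g) : SF fun v => f v = g v := by
  exact (SF.poly (IsP.proj true) (IsP.proj false)).comp (g := fun b => cond b f g)
    (fun b => by cases b; exacts [hg, hf])

theorem SFn.add (hf : SFn f) (hg : SFn g) : SFn fun v => f v + g v := by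
  exact (basic_polyFn ((IsP.proj true).add (IsP.proj false))).comp (g := fun b => cond b f g)
    (fun b => by cases b; exacts [hg, hf])

theorem SFn.mul (hf : SFn f) (hg : SFn g) : SFn fun v => f v * g v := by
  exact (basic_polyFn ((IsP.proj true).mul (IsP.proj false))).comp (g := fun b => cond b f g)
    (fun b => by cases b; exacts [hg, hf])

theorem SFn.npow (hf : SFn f) (k : ℕ) : SFn fun v => f v ^ k := by
  induction k with
  | zero => exact (SFn.const 1).congr fun v => by simp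
  | succ k ih => exact (ih.mul hf).congr fun v => by rw [pow_succ]

theorem SFn.sum {ι : Type} [Fintype ι] {F : ι → (γ → ℕ) → ℕ} (h : ∀ i, SFn (F i)) :
    SFn fun v => ∑ i, F i v := by
  classical
  have key : ∀ s : Finset ι, SFn fun v => ∑ i ∈ s, F i v := by
    intro s
    induction s using Finset.induction_on with
    | empty => exact (SFn.const 0).congr fun v => by simp
    | insert a s ha ih => exact ((h a).add ih).congr fun v => by rw [Finset.sum_insert ha]
  exact key Finset.univ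

theorem SF.le (hf : SFn f) (hg : SFn g) : SF fun v => f v ≤ g v := by
  have h1 := SF.ex (R := fun d v => f v + d = g v)
    (SF.eq (hf.weak.add (SFn.var none)) hg.weak) (fun v x y hx hy => by omega)
  exact h1.congr fun v => ⟨fun ⟨x, hx⟩ => by omega, fun h => ⟨g v - f v, by omega⟩⟩

theorem SF.lt (hf : SFn f) (hg : SFn g) : SF fun v => f v < g v := by
  exact SF.le (hf.add (SFn.const 1)) hg

theorem SFn.sub (hf : SFn f) (hg : SFn g) : SFn fun v => f v - g v := by
  refine SFn.of_rel (R := fun c v => ∃ d, c + g v = f v + d ∧ c * d = 0) ?_ ?_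
  · refine SF.ex (R := fun d (v : Option γ → ℕ) =>
      v none + g (fun i => v (some i)) = f (fun i => v (some i)) + d ∧ v none * d = 0) ?_ ?_
    · exact (SF.eq ((SFn.var (some none)).add hg.weak.weak) (hf.weak.weak.add (SFn.var none))).and
        (SF.eq ((SFn.var (some none)).mul (SFn.var none)) (SFn.const 0))
    · intro v x y hx hy; omega
  · intro x v
    constructor
    · rintro ⟨d, h1, h2⟩
      rcases Nat.mul_eq_zero.1 h2 with h | h <;> omega
    · intro h
      refine ⟨g v - f v, by omega, ?_⟩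
      rcases le_total (f v) (g v) with h' | h'
      · rw [h, Nat.sub_eq_zero_of_le h', zero_mul]
      · rw [Nat.sub_eq_zero_of_le h', mul_zero]

theorem SFn.div (hf : SFn f) (hg : SFn g) (h : ∀ v, 0 < g v) : SFn fun v => f v / g v := by
  refine SFn.of_rel (R := fun c v => c * g v ≤ f v ∧ f v < (c + 1) * g v) ?_ ?_
  · exact (SF.le ((SFn.var none).mul hg.weak) hf.weak).and
      (SF.lt hf.weak (((SFn.var none).add (SFn.const 1)).mul hg.weak))
  · intro x v
    rw [eq_comm, Nat.div_eq_iff (h v)]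
    have : (x + 1) * g v = x * g v + g v := by ring
    have := h v
    omega

theorem SFn.mod (hf : SFn f) (hg : SFn g) (h : ∀ v, 0 < g v) : SFn fun v => f v % g v := by
  exact (hf.sub (hg.mul (hf.div hg h))).congr fun v => (Nat.mod_eq_sub_mul_div).symm

theorem SF.coprime (hf : SFn f) (hg : SFn g) : SF fun v => 0 < g v ∧ Nat.Coprime (f v) (g v) := by
  have hg' : SFn fun v => g v - 1 + 1 := (hg.sub (SFn.const 1)).add (SFn.const 1)
  have h1 := SF.ex (R := fun u v => u < g v ∧ (f v * u) % (g v - 1 + 1) = 1 % (g v - 1 + 1))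
    ((SF.lt (SFn.var none) hg.weak).and
      (SF.eq ((hf.weak.mul (SFn.var none)).mod hg'.weak fun _ => Nat.succ_pos _)
        ((SFn.const 1).mod hg'.weak fun _ => Nat.succ_pos _)))
    (fun v x y hx hy => by
      have e : g v - 1 + 1 = g v := by omega
      rw [e] at hx hy
      have a1 : f v * x ≡ 1 [MOD g v] := hx.2
      have a2 : f v * y ≡ 1 [MOD g v] := hy.2
      have a3 : x ≡ y [MOD g v] := by
        calc x = x * 1 := (mul_one x).symm
          _ ≡ x * (f v * y) [MOD g v] := a2.symm.mul_left x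
          _ = (f v * x) * y := by ring
          _ ≡ 1 * y [MOD g v] := a1.mul_right y
          _ = y := one_mul y
      exact Nat.ModEq.eq_of_lt_of_lt a3 hx.1 hy.1)
  refine h1.congr fun v => ⟨?_, ?_⟩
  · rintro ⟨u, h1, h2⟩
    have e : g v - 1 + 1 = g v := by omega
    rw [e] at h2
    exact ⟨by omega, Nat.coprime_of_mul_modEq_one u h2⟩
  · rintro ⟨h1, h2⟩
    have e : g v - 1 + 1 = g v := by omega
    rw [e]
    exact Nat.exists_mul_mod_eq_of_coprime 1 h2 h1.ne'

theorem basic_toPoly {p : (α → ℕ) → ℕ} (hp : IsP p) :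
    ∃ P : MvPolynomial α ℤ, ∀ v : α → ℕ, MvPolynomial.eval (fun i => (v i : ℤ)) P = p v := by
  induction hp with
  | proj i => exact ⟨MvPolynomial.X i, fun v => by simp⟩
  | const c => exact ⟨MvPolynomial.C c, fun v => by simp⟩
  | add _ _ ih1 ih2 =>
    obtain ⟨P, hP⟩ := ih1
    obtain ⟨Q, hQ⟩ := ih2
    exact ⟨P + Q, fun v => by simp [hP, hQ]⟩
  | mul _ _ ih1 ih2 =>
    obtain ⟨P, hP⟩ := ih1
    obtain ⟨Q, hQ⟩ := ih2
    exact ⟨P * Q, fun v => by simp [hP, hQ]⟩

theorem SF.final {n : ℕ} {S : (Fin n → ℕ) → Prop} (h : SF S) :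
    ∃ m : ℕ, 1 ≤ m ∧ ∃ P : MvPolynomial (Fin n ⊕ Fin m) ℤ, ∀ a : Fin n → ℕ,
      (S a → ∃! w : Fin m → ℕ,
        MvPolynomial.eval (Sum.elim (fun i => (a i : ℤ)) (fun j => (w j : ℤ))) P = 0) ∧
      (¬ S a → ∀ w : Fin m → ℕ,
        MvPolynomial.eval (Sum.elim (fun i => (a i : ℤ)) (fun j => (w j : ℤ))) P ≠ 0) := by
  obtain ⟨β, hβ, p, q, hp, hq, H⟩ := h
  let e : Option β ≃ Fin (Fintype.card (Option β)) := Fintype.equivFin _
  obtain ⟨P, hP⟩ := basic_toPoly (hp.ren (Sum.map id fun b => e (some b)))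
  obtain ⟨Q, hQ⟩ := basic_toPoly (hq.ren (Sum.map id fun b => e (some b)))
  refine ⟨Fintype.card (Option β), by simp, (P - Q) ^ 2 + MvPolynomial.X (.inr (e none)), fun a => ?_⟩
  have key : ∀ w : Fin (Fintype.card (Option β)) → ℕ,
      MvPolynomial.eval (Sum.elim (fun i => (a i : ℤ)) (fun j => (w j : ℤ)))
        ((P - Q) ^ 2 + MvPolynomial.X (.inr (e none))) = 0 ↔
      p (Sum.elim a fun b => w (e (some b))) = q (Sum.elim a fun b => w (e (some b))) ∧
        w (e none) = 0 := by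
    intro w
    have e1 : (Sum.elim (fun i => (a i : ℤ)) (fun j => (w j : ℤ))) =
        fun i => ((Sum.elim a w i : ℕ) : ℤ) := by
      funext i; cases i <;> rfl
    have e2 : (fun i => Sum.elim a w (Sum.map id (fun b => e (some b)) i)) =
        Sum.elim a fun b => w (e (some b)) := by
      funext i; cases i <;> rfl
    rw [map_add, map_pow, map_sub, MvPolynomial.eval_X, e1, hP, hQ, e2]
    simp only [Sum.elim_inr]
    constructor
    · intro h
      have h0 : (0 : ℤ) ≤ (w (e none) : ℤ) := Int.natCast_nonneg _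
      have h1 := sq_nonneg ((p (Sum.elim a fun b => w (e (some b))) : ℤ) -
        q (Sum.elim a fun b => w (e (some b))))
      have h2 : ((p (Sum.elim a fun b => w (e (some b))) : ℤ) -
        q (Sum.elim a fun b => w (e (some b)))) ^ 2 = 0 := by linarith
      have h3 := pow_eq_zero_iff (two_ne_zero) |>.1 h2
      constructor <;> omega
    · rintro ⟨h1, h2⟩
      rw [h1, h2]; simp
  simp only [Ne, key]
  refine ⟨fun hS => ?_, fun hS w hw => hS ((H a).1.2 ⟨_, hw.1⟩)⟩
  obtain ⟨w, hw⟩ := (H a).1.1 hS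
  refine ⟨fun j => (e.symm j).elim 0 w, ?_, ?_⟩
  · simpa using hw
  · rintro w' ⟨h1, h2⟩
    have := (H a).2 _ _ h1 hw
    funext j
    obtain ⟨o, rfl⟩ := e.surjective j
    cases o with
    | none => simpa using h2
    | some b => simpa using congrFun this b

end Crest.Agent.R323
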