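import Mathlib

/-!
# Row 323 (single-fold Diophantine representations): definitions

`IsP f` : `f` is a polynomial with natural coefficients.  `SF S` : `S` is single-fold Diophantine
(`p = q` has exactly one solution in the finitely many unknowns when `S a`, none otherwise).
`SFn f` : the graph of `f` is single-fold Diophantine.
`dg s X i` : the `i`-th digit of `X` in base `2^s`; `cd t n f = ∑_{i<n} f i (2^t)^i`.
`Prim M e` : primitive solution of `M^4 + N^2 = 2 e^4` (the point `(-M²/e², MN/e³)` of `y² = x³ - 2x`).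
`Adj M e M' e'` : `-M'²/e'²` is the abscissa of `R ± Q`, `R` the point of `(M, e)`, `Q = 2 (-1, 1)`.
-/

set_option autoImplicit false

namespace Crest.Agent.R323

inductive IsP {α : Type} : ((α → ℕ) → ℕ) → Prop
  | proj (i : α) : IsP fun v => v i
  | const (c : ℕ) : IsP fun _ => c
  | add {f g : (α → ℕ) → ℕ} : IsP f → IsP g → IsP fun v => f v + g v
  | mul {f g : (α → ℕ) → ℕ} : IsP f → IsP g → IsP fun v => f v * g v

def SF {α : Type} (S : (α → ℕ) → Prop) : Prop :=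
  ∃ (β : Type) (_ : Fintype β) (p q : (α ⊕ β → ℕ) → ℕ), IsP p ∧ IsP q ∧
    ∀ a, (S a ↔ ∃ w, p (Sum.elim a w) = q (Sum.elim a w)) ∧
      ∀ w w', p (Sum.elim a w) = q (Sum.elim a w) → p (Sum.elim a w') = q (Sum.elim a w') → w = w'

def SFn {α : Type} (f : (α → ℕ) → ℕ) : Prop :=
  SF fun v : Option α → ℕ => v none = f fun i => v (some i)

def dg (s X i : ℕ) : ℕ := X / 2 ^ (s * i) % 2 ^ s

def cd (t n : ℕ) (f : ℕ → ℕ) : ℕ := ∑ i ∈ Finset.range n, f i * 2 ^ (t * i)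

/-- the positional code of the sequence `d v` of length `n v` is single-fold, in every base -/
def VF {γ : Type} (n : (γ → ℕ) → ℕ) (d : (γ → ℕ) → ℕ → ℕ) : Prop :=
  ∀ t : (γ → ℕ) → ℕ, SFn t → SFn fun v => cd (t v) (n v) (d v)

def Prim (M e : ℕ) : Prop := 0 < e ∧ Nat.Coprime M e ∧ ∃ N, M ^ 4 + N ^ 2 = 2 * e ^ 4

/-- `U² M'⁴ + Z² e'⁴ = 2 V W M'² e'²` with `U = 9e² + 4M²`, `Z = 8e² - 9M²`, `V = 9e² - 4M²`,
`W = 8e² + 9M²`, written without subtraction -/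
def Adj (M e M' e' : ℕ) : Prop :=
  (9 * e ^ 2 + 4 * M ^ 2) ^ 2 * M' ^ 4 + (64 * e ^ 4 + 81 * M ^ 4) * e' ^ 4 +
      8 * M ^ 2 * (8 * e ^ 2 + 9 * M ^ 2) * (M' ^ 2 * e' ^ 2) =
    144 * (e ^ 2 * M ^ 2) * e' ^ 4 + 18 * e ^ 2 * (8 * e ^ 2 + 9 * M ^ 2) * (M' ^ 2 * e' ^ 2)

end Crest.Agent.R323
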