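import Crest.Agent.R323.Defs

/-!
# R323 / Dig : arithmetic of positional codes (no Diophantine notions)

`odd_choose_iff`: Lucas (`Choose.choose_modEq_choose_mod_mul_choose_div_nat`) and binary induction.
`and_mask_iff`: induction on `n` (split off one digit), `Nat.and_two_pow_sub_one_eq_mod`, or `Nat.testBit`.
-/

set_option autoImplicit false

namespace Crest.Agent.R323

variable {s t T r n m X U V i k : ℕ} {f g : ℕ → ℕ}

theorem cd_succ (t n : ℕ) (f : ℕ → ℕ) : cd t (n + 1) f = cd t n f + f n * 2 ^ (t * n) :=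
  Finset.sum_range_succ _ _

theorem cd_congr (h : ∀ i < n, f i = g i) : cd t n f = cd t n g := by
  exact Finset.sum_congr rfl fun i hi => by rw [h i (Finset.mem_range.1 hi)]

theorem cd_add (t n : ℕ) (f g : ℕ → ℕ) : cd t n (fun i => f i + g i) = cd t n f + cd t n g := by
  simp only [cd, add_mul, Finset.sum_add_distrib]

theorem cd_const_mul (t n c : ℕ) (f : ℕ → ℕ) : cd t n (fun i => c * f i) = c * cd t n f := by
  simp only [cd, Finset.mul_sum, mul_assoc]

theorem le_cd (t : ℕ) (f : ℕ → ℕ) (h : i < n) : f i ≤ cd t n f := by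
  calc f i ≤ f i * 2 ^ (t * i) := Nat.le_mul_of_pos_right _ (by positivity)
    _ ≤ _ := Finset.single_le_sum (f := fun i => f i * 2 ^ (t * i)) (fun _ _ => Nat.zero_le _)
      (Finset.mem_range.2 h)

theorem cd_lt (h : ∀ i < n, f i < 2 ^ t) : cd t n f < 2 ^ (t * n) := by
  induction n with
  | zero => simp [cd]
  | succ n ih =>
    have h1 := ih fun i hi => h i (by omega)
    have h2 : f n + 1 ≤ 2 ^ t := h n (by omega)
    have h3 := Nat.mul_le_mul_right (2 ^ (t * n)) h2
    rw [cd_succ, mul_add, mul_one, pow_add, mul_comm (2 ^ (t * n))]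
    rw [add_mul, one_mul] at h3
    omega

theorem cd_lt' (t : ℕ) (h : ∀ i < n, f i < 2 ^ s) : cd t n f < 2 ^ (n + s + t * n) := by
  induction n with
  | zero => simp [cd]
  | succ n ih =>
    have h1 := ih fun i hi => h i (by omega)
    have h2 : f n ≤ 2 ^ s := (h n (by omega)).le
    have h3 := Nat.mul_le_mul_right (2 ^ (t * n)) h2
    rw [← pow_add] at h3
    have h4 : 2 ^ (s + t * n) ≤ 2 ^ (n + s + t * n) := Nat.pow_le_pow_right two_pos (by omega)
    have h5 : 2 ^ (n + s + t * n + 1) ≤ 2 ^ (n + 1 + s + t * (n + 1)) :=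
      Nat.pow_le_pow_right two_pos (by rw [mul_add]; omega)
    rw [pow_succ] at h5
    rw [cd_succ]
    omega

theorem dg_lt (s X i : ℕ) : dg s X i < 2 ^ s := by
  exact Nat.mod_lt _ (by positivity)

theorem dg_cd (h : ∀ i < n, f i < 2 ^ t) (k : ℕ) :
    dg t (cd t n f) k = if k < n then f k else 0 := by
  induction n with
  | zero => simp [cd, dg]
  | succ n ih =>
    have h0 : ∀ i < n, f i < 2 ^ t := fun i hi => h i (by omega)
    rcases lt_trichotomy k n with hk | rfl | hk
    · have h1 := ih h0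
      rw [if_pos hk] at h1
      rw [if_pos (by omega), ← h1, cd_succ]
      obtain ⟨j, rfl⟩ := Nat.exists_eq_add_of_lt hk
      have e : f (k + j + 1) * 2 ^ (t * (k + j + 1)) =
          2 ^ (t * k) * (2 ^ t * (f (k + j + 1) * 2 ^ (t * j))) := by ring
      unfold dg
      rw [e, Nat.add_mul_div_left _ _ (by positivity), Nat.add_mul_mod_self_left]
    · rw [if_pos (by omega), cd_succ]
      unfold dg
      rw [Nat.add_mul_div_right _ _ (by positivity), Nat.div_eq_of_lt (cd_lt h0), zero_add,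
        Nat.mod_eq_of_lt (h k (by omega))]
    · rw [if_neg (by omega)]
      unfold dg
      rw [Nat.div_eq_of_lt, Nat.zero_mod]
      exact (cd_lt h).trans_le (Nat.pow_le_pow_right two_pos (Nat.mul_le_mul_left _ hk))

theorem cd_dg (s n X : ℕ) : cd s n (dg s X) = X % 2 ^ (s * n) := by
  induction n with
  | zero => simp [cd, Nat.mod_one]
  | succ n ih =>
    rw [cd_succ, ih, mul_add, mul_one, pow_add, Nat.mod_mul, mul_comm (dg s X n)]
    rfl

theorem cd_modEq (h : s ≤ T) (n : ℕ) (f : ℕ → ℕ) : cd T n f ≡ cd s n f [MOD 2 ^ T - 2 ^ s] := by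
  have h1 : 2 ^ T ≡ 2 ^ s [MOD 2 ^ T - 2 ^ s] :=
    ((Nat.modEq_iff_dvd' (Nat.pow_le_pow_right two_pos h)).2 dvd_rfl).symm
  induction n with
  | zero => rfl
  | succ n ih =>
    rw [cd_succ, cd_succ, pow_mul, pow_mul]
    exact ih.add ((h1.pow n).mul_left _)

theorem cd_mul_cd (T n m : ℕ) (f g : ℕ → ℕ) :
    cd T n f * cd (T * n) m g = cd T (n * m) fun k => f (k % n) * g (k / n) := by
  induction m with
  | zero => simp [cd]
  | succ m ih =>
    rw [cd_succ, mul_add, ih, mul_add n m 1, mul_one]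
    unfold cd
    rw [Finset.sum_range_add, Finset.sum_mul]
    congr 1
    refine Finset.sum_congr rfl fun i hi => ?_
    have hi' := Finset.mem_range.1 hi
    dsimp only
    rw [Nat.mul_add_mod, Nat.mod_eq_of_lt hi', Nat.mul_add_div (by omega), Nat.div_eq_of_lt hi',
      add_zero]
    ring

theorem dg_diag (T n X i : ℕ) : dg (T * (n + 1)) X i % 2 ^ T = dg T X ((n + 1) * i) := by
  unfold dg
  rw [Nat.mod_mod_of_dvd _ (pow_dvd_pow 2 (by rw [mul_add]; omega)), mul_assoc]

theorem cd_one (h : 0 < T) (n : ℕ) : cd T n (fun _ => 1) = (2 ^ (T * n) - 1) / (2 ^ T - 1) := by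
  have h2 : 2 ≤ 2 ^ T := Nat.le_self_pow h.ne' 2
  rw [pow_mul, ← Nat.geomSum_eq h2]
  simp only [cd, one_mul, pow_mul]

theorem cd_id (h : 0 < T) (n : ℕ) : cd T n (fun i => i) =
    (n * 2 ^ (T * n) + 1 - cd T n (fun _ => 1) - 2 ^ (T * n)) / (2 ^ T - 1) := by
  have h2 : 2 ≤ 2 ^ T := Nat.le_self_pow h.ne' 2
  obtain ⟨y, hy⟩ : ∃ y, 2 ^ T = y + 1 := ⟨2 ^ T - 1, by omega⟩
  have key : cd T n (fun i => i) * y + cd T n (fun _ => 1) + 2 ^ (T * n) = n * 2 ^ (T * n) + 1 := by
    induction n with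
    | zero => simp [cd]
    | succ n ih =>
      rw [cd_succ, cd_succ, mul_add T n 1, mul_one, pow_add, hy]
      linarith
  symm
  apply Nat.div_eq_of_eq_mul_left (by omega)
  rw [hy, Nat.add_sub_cancel]
  omega

theorem choose_eq_dg (n k : ℕ) : n.choose k = dg (n + 1) ((2 ^ (n + 1) + 1) ^ n) k := by
  have e : (2 ^ (n + 1) + 1) ^ n = cd (n + 1) (n + 1) (n.choose) := by
    rw [add_pow]
    unfold cd
    refine Finset.sum_congr rfl fun i _ => ?_
    rw [← pow_mul]
    simp [mul_comm]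
  rw [e, dg_cd]
  · split_ifs with h
    · rfl
    · exact Nat.choose_eq_zero_of_lt (by omega)
  · intro i _
    exact (Nat.choose_le_two_pow n i).trans_lt (Nat.pow_lt_pow_right one_lt_two (by omega))

theorem odd_choose_iff (V U : ℕ) : V.choose U % 2 = 1 ↔ U &&& V = U := by
  induction U using Nat.strong_induction_on generalizing V with
  | _ U ih =>
    rcases Nat.eq_zero_or_pos U with rfl | hU
    · simp
    have h1 : V.choose U % 2 = (V % 2).choose (U % 2) * (V / 2).choose (U / 2) % 2 :=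
      Choose.choose_modEq_choose_mod_mul_choose_div_nat
    have h2 := ih (U / 2) (by omega) (V / 2)
    have h3 : (U &&& V) / 2 = U / 2 &&& V / 2 := Nat.and_div_two
    have h4 : (U &&& V) % 2 = 1 ↔ U % 2 = 1 ∧ V % 2 = 1 := Nat.and_mod_two_eq_one
    rw [h1]
    rcases Nat.mod_two_eq_zero_or_one U with a | a <;>
      rcases Nat.mod_two_eq_zero_or_one V with b | b <;> rw [a, b] <;> simp <;> omega

theorem and_mask_iff (h : r ≤ T) (n U : ℕ) :
    U &&& cd T n (fun _ => 2 ^ r - 1) = U ↔ ∃ d : ℕ → ℕ, (∀ i < n, d i < 2 ^ r) ∧ U = cd T n d := by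
  have hr : 2 ^ r ≤ 2 ^ T := Nat.pow_le_pow_right two_pos h
  have hr0 : 0 < 2 ^ r := by positivity
  induction n generalizing U with
  | zero => simp [cd, eq_comm]
  | succ n ih =>
    have hM : cd T n (fun _ => 2 ^ r - 1) < 2 ^ (T * n) := cd_lt fun _ _ => by omega
    have h1 : (U &&& cd T (n + 1) fun _ => 2 ^ r - 1) / 2 ^ (T * n) = U / 2 ^ (T * n) % 2 ^ r := by
      rw [Nat.and_div_two_pow, cd_succ, Nat.add_mul_div_right _ _ (by positivity),
        Nat.div_eq_of_lt hM, zero_add, Nat.and_two_pow_sub_one_eq_mod]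
    have h2 : (U &&& cd T (n + 1) fun _ => 2 ^ r - 1) % 2 ^ (T * n) =
        U % 2 ^ (T * n) &&& cd T n fun _ => 2 ^ r - 1 := by
      rw [Nat.and_mod_two_pow, cd_succ, Nat.add_mul_mod_self_right, Nat.mod_eq_of_lt hM]
    constructor
    · intro H
      rw [H] at h1 h2
      obtain ⟨d, hd, e⟩ := (ih _).1 h2.symm
      refine ⟨fun i => if i < n then d i else U / 2 ^ (T * n), fun i _ => ?_, ?_⟩
      · dsimp only
        split_ifs with hi
        · exact hd i hi
        · rw [h1]; exact Nat.mod_lt _ hr0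
      · rw [cd_succ, if_neg (lt_irrefl n), cd_congr (g := d) fun i hi => if_pos hi, ← e,
          Nat.mod_add_div']
    · rintro ⟨d, hd, e⟩
      have hc : cd T n d < 2 ^ (T * n) := cd_lt fun i hi => (hd i (by omega)).trans_le hr
      have e1 : U / 2 ^ (T * n) = d n := by
        rw [e, cd_succ, Nat.add_mul_div_right _ _ (by positivity), Nat.div_eq_of_lt hc, zero_add]
      have e2 : U % 2 ^ (T * n) = cd T n d := by
        rw [e, cd_succ, Nat.add_mul_mod_self_right, Nat.mod_eq_of_lt hc]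
      rw [(ih _).2 ⟨d, fun i hi => hd i (by omega), e2⟩] at h2
      rw [Nat.mod_eq_of_lt (e1 ▸ hd n (by omega))] at h1
      rw [← Nat.mod_add_div (U &&& _) (2 ^ (T * n)), h1, h2, Nat.mod_add_div]

end Crest.Agent.R323
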