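import Crest.Agent.R323.EllA

/-!
# R323 / Ell : the primitive solutions of `M⁴ + N² = 2 e⁴` form one chain
(odd multiples of `P = (-1, 1)` on `y² = x³ - 2x`; elementary 2-descent)
-/

set_option autoImplicit false

namespace Crest.Agent.R323

/-- `R` has abscissa `-(M/e)²` in lowest terms -/
def NP (R : EW.Point) (M e : ℕ) : Prop :=
  0 < M ∧ 0 < e ∧ Nat.Coprime M e ∧ Has R (-((M : ℚ) / e) ^ 2)

/-- `S` has abscissa `(A/B)²` in lowest terms -/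
def PP (S : EW.Point) (A B : ℕ) : Prop :=
  0 < A ∧ 0 < B ∧ Nat.Coprime A B ∧ Has S (((A : ℚ) / B) ^ 2)

theorem ell_frac {u : ℚ} (hu : u ≠ 0) :
    ∃ A B : ℕ, 0 < A ∧ 0 < B ∧ Nat.Coprime A B ∧ u ^ 2 = ((A : ℚ) / B) ^ 2 :=
  ⟨u.num.natAbs, u.den, Int.natAbs_pos.2 (Rat.num_ne_zero.2 hu), u.den_pos, u.reduced, by
    rw [div_pow, Nat.cast_natAbs, Int.cast_abs, sq_abs, ← div_pow, Rat.num_div_den]⟩

theorem Has.np {R : EW.Point} {u : ℚ} (hu : u ≠ 0) (h : Has R (-u ^ 2)) : ∃ M e, NP R M e := by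
  obtain ⟨A, B, h1, h2, h3, e⟩ := ell_frac hu
  exact ⟨A, B, h1, h2, h3, e ▸ h⟩

theorem Has.pp {R : EW.Point} {u : ℚ} (hu : u ≠ 0) (h : Has R (u ^ 2)) : ∃ A B, PP R A B := by
  obtain ⟨A, B, h1, h2, h3, e⟩ := ell_frac hu
  exact ⟨A, B, h1, h2, h3, e ▸ h⟩

variable {R R' S : EW.Point} {M e M' e' A B : ℕ}

theorem NP.neg (h : NP R M e) : NP (-R) M e := ⟨h.1, h.2.1, h.2.2.1, h.2.2.2.neg⟩

theorem np_unique_aux (h : NP R M e) (h' : NP R' M' e')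
    (e0 : -((M : ℚ) / e) ^ 2 = -((M' : ℚ) / e') ^ 2) : M = M' ∧ e = e' := by
  obtain ⟨a1, a2, a3, -⟩ := h
  obtain ⟨b1, b2, b3, -⟩ := h'
  rw [neg_inj, sq_eq_sq₀ (by positivity) (by positivity),
    div_eq_div_iff (by positivity) (by positivity)] at e0
  have e1 : M * e' = M' * e := by exact_mod_cast e0
  have e2 : M = M' := Nat.dvd_antisymm (a3.dvd_of_dvd_mul_right (Dvd.intro _ e1))
    (b3.dvd_of_dvd_mul_right (Dvd.intro _ e1.symm))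
  subst e2
  exact ⟨rfl, (Nat.eq_of_mul_eq_mul_left a1 e1).symm⟩

theorem NP.unique (h : NP R M e) (h' : NP R M' e') : M = M' ∧ e = e' :=
  np_unique_aux h h' (h.2.2.2.unique h'.2.2.2)

theorem NP.prim (h : NP R M e) : Prim M e := by
  obtain ⟨a1, a2, a3, a4⟩ := h
  obtain ⟨y, hy⟩ := a4.eqn
  have : IsSquare (2 * (e : ℤ) ^ 4 - (M : ℤ) ^ 4) := by
    rw [← Rat.isSquare_intCast_iff]
    refine ⟨y * e ^ 3 / M, ?_⟩
    rw [← sq, div_pow, mul_pow, hy]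
    push_cast
    field_simp
    ring
  obtain ⟨z, hz⟩ := this
  refine ⟨a2, a3, z.natAbs, ?_⟩
  zify
  rw [sq_abs]; linear_combination -hz

theorem Prim.odd (h : Prim M e) : M % 2 = 1 ∧ e % 2 = 1 := by
  obtain ⟨-, a3, N, hN⟩ := h
  have key : ∀ a < 4, ∀ b < 4, ∀ c < 4, (a ^ 4 + b ^ 2) % 4 = (2 * c ^ 4) % 4 → a % 2 = c % 2 := by
    decide
  have h1 := key (M % 4) (Nat.mod_lt _ (by norm_num)) (N % 4) (Nat.mod_lt _ (by norm_num))
    (e % 4) (Nat.mod_lt _ (by norm_num)) (by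
      have := congrArg (· % 4) hN
      simpa [Nat.add_mod, Nat.mul_mod, Nat.pow_mod] using this)
  have h2 : ¬ (2 ∣ M ∧ 2 ∣ e) := fun h => by
    have := Nat.dvd_gcd h.1 h.2
    rw [a3] at this; omega
  omega

theorem Prim.np (h : Prim M e) : ∃ R, NP R M e := by
  have h1 := h.odd
  obtain ⟨a2, a3, N, hN⟩ := h
  have hN' : (M : ℚ) ^ 4 + N ^ 2 = 2 * e ^ 4 := by exact_mod_cast hN
  obtain ⟨R, hR⟩ := exists_has (x := -((M : ℚ) / e) ^ 2) (y := M * N / e ^ 3) (by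
    field_simp; linear_combination (M : ℚ) ^ 2 * hN')
  exact ⟨R, by omega, a2, a3, hR⟩

theorem Prim.bound (h : Prim M e) : 2 * M ^ 2 ≤ 3 * e ^ 2 := by
  obtain ⟨-, -, N, hN⟩ := h
  refine (Nat.pow_le_pow_iff_left two_ne_zero).1 ?_
  nlinarith [Nat.zero_le (N ^ 2), Nat.zero_le (e ^ 4)]

theorem PP.even (h : PP S A B) : A % 2 = 1 ∧ B % 2 = 0 := by
  obtain ⟨a1, a2, a3, a4⟩ := h
  obtain ⟨y, hy⟩ := a4.eqn
  have : IsSquare ((A : ℤ) ^ 4 - 2 * (B : ℤ) ^ 4) := by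
    rw [← Rat.isSquare_intCast_iff]
    refine ⟨y * B ^ 3 / A, ?_⟩
    rw [← sq, div_pow, mul_pow, hy]
    push_cast
    field_simp
  obtain ⟨z, hz⟩ := this
  have hN : z.natAbs ^ 2 + 2 * B ^ 4 = A ^ 4 := by
    zify
    rw [sq_abs]; linear_combination -hz
  generalize z.natAbs = N at hN
  have key : ∀ a < 4, ∀ b < 4, ∀ c < 4, (b ^ 2 + 2 * c ^ 4) % 4 = a ^ 4 % 4 → c % 2 = 0 := by
    decide
  have h1 := key (A % 4) (Nat.mod_lt _ (by norm_num)) (N % 4) (Nat.mod_lt _ (by norm_num))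
    (B % 4) (Nat.mod_lt _ (by norm_num)) (by
      have := congrArg (· % 4) hN
      simpa [Nat.add_mod, Nat.mul_mod, Nat.pow_mod] using this)
  have h2 : ¬ (2 ∣ A ∧ 2 ∣ B) := fun h => by
    have := Nat.dvd_gcd h.1 h.2
    rw [a3] at this; omega
  omega

theorem ell_dvd {a b c a' : ℤ} (h : ∀ p : ℤ, Prime p → p ∣ a → p ∣ b → ¬ p ∣ c) (ha : a ≠ 0)
    (hb : a ∣ a' * b) (hc : a ∣ a' * c) : a ∣ a' := by
  have h1 : IsCoprime (gcd a b) c :=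
    isCoprime_of_prime_dvd (fun h => ha ((gcd_eq_zero_iff _ _).1 h.1).1) fun p hp h1 =>
      h p hp (h1.trans (gcd_dvd_left _ _)) (h1.trans (gcd_dvd_right _ _))
  obtain ⟨u, v, huv⟩ := h1
  obtain ⟨s, t, hst⟩ := exists_gcd_eq_mul_add_mul a b
  have : a' = a * (a' * u * s) + (a' * b) * (u * t) + (a' * c) * v := by
    rw [hst] at huv; linear_combination -a' * huv
  rw [this]
  exact ((Dvd.intro _ rfl).add (hb.mul_right _)).add (hc.mul_right _)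

theorem ell_cop {a b : ℕ} (h : Nat.Coprime a b) {p : ℤ} (hp : Prime p) (h1 : p ∣ a) (h2 : p ∣ b) :
    False := hp.not_unit ((Nat.isCoprime_iff_coprime.2 h).isUnit_of_dvd' h1 h2)

/-- the height lemma -/
theorem NP.add (h : NP R M e) (h' : PP S A B) :
    ∃ M₁ e₁ M₂ e₂, NP (R + S) M₁ e₁ ∧ NP (R - S) M₂ e₂ ∧ e₁ * e₂ = M ^ 2 * B ^ 2 + A ^ 2 * e ^ 2 ∧
      ∀ X : ℚ, ((M : ℚ) ^ 2 * B ^ 2 + A ^ 2 * e ^ 2) ^ 2 * X ^ 2 +
          2 * (A ^ 2 * e ^ 2 - M ^ 2 * B ^ 2) * (M ^ 2 * A ^ 2 + 2 * e ^ 2 * B ^ 2) * X +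
          (2 * e ^ 2 * B ^ 2 - M ^ 2 * A ^ 2) ^ 2 = 0 ↔
        X = -((M₁ : ℚ) / e₁) ^ 2 ∨ X = -((M₂ : ℚ) / e₂) ^ 2 := by
  have o1 := h.prim.odd
  have o2 := h'.even
  obtain ⟨a1, a2, a3, a4⟩ := h
  obtain ⟨b1, b2, b3, b4⟩ := h'
  have p1 : (0 : ℚ) < ((M : ℚ) / e) ^ 2 := by positivity
  have p2 : (0 : ℚ) < ((A : ℚ) / B) ^ 2 := by positivity
  obtain ⟨x₃, x₄, c1, c2, c3, c4, ⟨ν, c5⟩, ⟨ν', c6⟩⟩ := a4.add b4 (by linarith)
  have hprod : x₃ * x₄ ≠ 0 := fun h0 => by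
    rw [h0, mul_zero, eq_comm, pow_eq_zero_iff two_ne_zero] at c3
    exact not_sq_two ((M : ℚ) / e * (A / B)) (by linear_combination -c3)
  have aux : ∀ {T x ν}, Has T x → x ≠ 0 → -((M : ℚ) / e) ^ 2 * ((A : ℚ) / B) ^ 2 * x = ν ^ 2 →
      ∃ M₁ e₁, NP T M₁ e₁ ∧ x = -((M₁ : ℚ) / e₁) ^ 2 := fun {T x ν} hT hx hν => by
    have e1 : x = -(ν / ((M : ℚ) / e * (A / B))) ^ 2 := by
      rw [div_pow, ← hν]; field_simp
    obtain ⟨M₁, e₁, h1⟩ := Has.np (u := ν / ((M : ℚ) / e * (A / B)))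
      (fun h0 => hx (by rw [e1, h0]; simp)) (e1 ▸ hT)
    exact ⟨M₁, e₁, h1, hT.unique h1.2.2.2⟩
  obtain ⟨M₁, e₁, n1, rfl⟩ := aux c1 (left_ne_zero_of_mul hprod) c5
  obtain ⟨M₂, e₂, n2, rfl⟩ := aux c2 (right_ne_zero_of_mul hprod) c6
  have q1 := n1.2.1
  have q2 := n2.2.1
  set U : ℤ := M ^ 2 * B ^ 2 + A ^ 2 * e ^ 2 with hU
  set V : ℤ := A ^ 2 * e ^ 2 - M ^ 2 * B ^ 2 with hV
  set W : ℤ := M ^ 2 * A ^ 2 + 2 * e ^ 2 * B ^ 2 with hW
  set Z : ℤ := 2 * e ^ 2 * B ^ 2 - M ^ 2 * A ^ 2 with hZ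
  have d1 : U ^ 2 * (M₁ * M₂) ^ 2 = (e₁ * e₂) ^ 2 * Z ^ 2 := by
    field_simp at c3
    rw [hU, hZ]; qify; linear_combination c3
  have d2 : U ^ 2 * (M₁ ^ 2 * e₂ ^ 2 + M₂ ^ 2 * e₁ ^ 2) = (e₁ * e₂) ^ 2 * (2 * V * W) := by
    field_simp at c4
    rw [hU, hV, hW]; qify; linear_combination -c4
  have hU0 : 0 < U := by positivity
  have f1 : ((e₁ : ℤ) * e₂) ^ 2 ∣ U ^ 2 := by
    refine ell_dvd (fun p hp h1 h2 h3 => ?_) (by positivity) (Dvd.intro _ d1.symm)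
      (Dvd.intro _ d2.symm)
    rcases hp.dvd_or_dvd (hp.dvd_of_dvd_pow h1) with g1 | g1 <;>
      rcases hp.dvd_or_dvd (hp.dvd_of_dvd_pow h2) with g2 | g2
    · exact ell_cop n1.2.2.1 hp g2 g1
    · rcases hp.dvd_or_dvd ((dvd_add_left ((dvd_pow g1 two_ne_zero).mul_left _)).1 h3) with g | g
      · exact ell_cop n1.2.2.1 hp (hp.dvd_of_dvd_pow g) g1
      · exact ell_cop n2.2.2.1 hp g2 (hp.dvd_of_dvd_pow g)
    · rcases hp.dvd_or_dvd ((dvd_add_right ((dvd_pow g1 two_ne_zero).mul_left _)).1 h3) with g | g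
      · exact ell_cop n2.2.2.1 hp (hp.dvd_of_dvd_pow g) g1
      · exact ell_cop n1.2.2.1 hp g2 (hp.dvd_of_dvd_pow g)
    · exact ell_cop n2.2.2.1 hp g2 g1
  have f2 : U ^ 2 ∣ ((e₁ : ℤ) * e₂) ^ 2 := by
    refine ell_dvd (fun p hp h1 h2 h3 => ?_) (by positivity) (Dvd.intro _ d1) (Dvd.intro _ d2)
    replace h1 := hp.dvd_of_dvd_pow h1
    replace h2 := hp.dvd_of_dvd_pow h2
    have h4 : ¬ p ∣ 2 := fun h4 => by
      have h5 := (hp.associated_of_dvd Int.prime_two h4).symm.dvd.trans h1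
      obtain ⟨m, rfl⟩ : ∃ m, B = 2 * m := ⟨B / 2, by omega⟩
      rw [hU, dvd_add_right (by push_cast; exact Dvd.intro (M ^ 2 * 2 * m ^ 2) (by ring))] at h5
      rcases Int.prime_two.dvd_or_dvd h5 with g | g <;>
        have := Int.prime_two.dvd_of_dvd_pow g <;> omega
    have two : ∀ {x : ℤ}, p ∣ 2 * x → p ∣ x := fun h => (hp.dvd_or_dvd h).resolve_left h4
    have sq2 : ∀ {x y : ℤ}, p ∣ x ^ 2 * y ^ 2 → p ∣ x ∨ p ∣ y := fun h =>
      (hp.dvd_or_dvd h).imp hp.dvd_of_dvd_pow hp.dvd_of_dvd_pow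
    have l1 : ∀ {x : ℤ} (y : ℤ), p ∣ x → p ∣ x ^ 2 * y := fun y h =>
      (dvd_pow h two_ne_zero).mul_right y
    have l2 : ∀ {x : ℤ} (y : ℤ), p ∣ x → p ∣ y * x ^ 2 := fun y h =>
      (dvd_pow h two_ne_zero).mul_left y
    have cM := fun g1 g2 => ell_cop a3 hp g1 g2
    have cA := fun g1 g2 => ell_cop b3 hp g1 g2
    have u1 : p ∣ (M : ℤ) ^ 2 * B ^ 2 ↔ p ∣ (A : ℤ) ^ 2 * e ^ 2 :=
      ⟨fun g => (dvd_add_right g).1 h1, fun g => (dvd_add_left g).1 h1⟩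
    have u2 : p ∣ (M : ℤ) ^ 2 * A ^ 2 ↔ p ∣ (e : ℤ) ^ 2 * B ^ 2 :=
      ⟨fun g => two ((h2.add g).trans (dvd_of_eq (by rw [hZ]; ring))),
        fun g => ((g.mul_left 2).sub h2).trans (dvd_of_eq (by rw [hZ]; ring))⟩
    have nM : ¬ p ∣ M := fun g => (sq2 (u1.1 (l1 _ g))).elim
      (fun g' => (sq2 (u2.1 (l1 _ g))).elim (cM g) (cA g')) (cM g)
    have nA : ¬ p ∣ A := fun g => (sq2 (u1.2 (l1 _ g))).elim nM (cA g)
    have nB : ¬ p ∣ B := fun g => (sq2 (u2.2 (l2 _ g))).elim nM nA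
    rw [mul_assoc] at h3
    rcases hp.dvd_or_dvd (two h3) with g | g
    · exact (sq2 (two (x := (M : ℤ) ^ 2 * B ^ 2) 
        ((h1.sub g).trans (dvd_of_eq (by rw [hU, hV]; ring))))).elim nM nB
    · exact (sq2 (two (x := (M : ℤ) ^ 2 * A ^ 2) 
        ((g.sub h2).trans (dvd_of_eq (by rw [hW, hZ]; ring))))).elim nM nA
  have f3 : (e₁ : ℤ) * e₂ = U := by
    have := Int.dvd_antisymm (by positivity) (by positivity) f1 f2
    rwa [sq_eq_sq₀ (by positivity) hU0.le] at this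
  refine ⟨M₁, e₁, M₂, e₂, n1, n2, by rw [hU] at f3; exact_mod_cast f3, fun X => ?_⟩
  rw [hU, hZ] at d1
  rw [hU, hV, hW] at d2
  have hU1 : ((M : ℚ) ^ 2 * B ^ 2 + A ^ 2 * e ^ 2) ^ 2 ≠ 0 := by positivity
  rw [← sub_eq_zero, ← sub_eq_zero (a := X), ← sub_eq_zero (a := X), ← mul_eq_zero,
    ← mul_eq_zero_iff_left hU1 (b := _ * _)]
  refine iff_of_eq (congrArg (· = 0) ?_)
  qify at d1 d2
  field_simp
  linear_combination -X * d2 - d1

/-- the point `(-1, 1)` -/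
noncomputable def EP : EW.Point := .some (-1) 1 (ew_nonsingular.2 (by norm_num))

theorem has_EP : Has EP (-1) := ⟨_, _, rfl⟩

theorem np_EP : NP EP 1 1 := ⟨one_pos, one_pos, by norm_num, by simpa using has_EP⟩

theorem pp_EQ : PP (EP + EP) 3 2 := ⟨by norm_num, by norm_num, by norm_num, by
  convert has_EP.double (y := 1) (by norm_num) one_ne_zero using 1; norm_num⟩

theorem NP.double (h : NP R M e) : ∃ B, PP (R + R) (M ^ 4 + 2 * e ^ 4) B := by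
  have o := h.prim.odd
  obtain ⟨-, -, N, hN⟩ := h.prim
  obtain ⟨a1, a2, a3, a4⟩ := h
  have hN0 : 0 < N := by
    rcases Nat.eq_zero_or_pos N with rfl | h0
    · have : 2 ∣ M := Nat.prime_two.dvd_of_dvd_pow (n := 4) ⟨e ^ 4, by simpa using hN⟩
      omega
    · exact h0
  have hN' : (M : ℚ) ^ 4 + N ^ 2 = 2 * e ^ 4 := by exact_mod_cast hN
  refine ⟨2 * (e * (M * N)), by positivity, by positivity, ?_, ?_⟩
  · refine Nat.coprime_of_dvd fun p hp h1 h2 => ?_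
    have c : ¬ (p ∣ M ∧ p ∣ e) := fun g => hp.one_lt.ne' (Nat.eq_one_of_dvd_coprimes a3 g.1 g.2)
    have h4 : ¬ p ∣ 2 := fun h4 => by
      obtain rfl := (Nat.prime_dvd_prime_iff_eq hp Nat.prime_two).1 h4
      have := Nat.prime_two.dvd_of_dvd_pow ((Nat.dvd_add_left (Dvd.intro _ rfl)).1 h1)
      omega
    have ne : ¬ p ∣ e := fun g => c ⟨hp.dvd_of_dvd_pow
      ((Nat.dvd_add_left ((dvd_pow g four_ne_zero).mul_left 2)).1 h1), g⟩
    have nM : ¬ p ∣ M := fun g => ne (hp.dvd_of_dvd_pow (((Nat.Prime.dvd_mul hp).1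
      ((Nat.dvd_add_right (dvd_pow g four_ne_zero)).1 h1)).resolve_left h4))
    have g := ((Nat.Prime.dvd_mul hp).1 (((Nat.Prime.dvd_mul hp).1
      (((Nat.Prime.dvd_mul hp).1 h2).resolve_left h4)).resolve_left ne)).resolve_left nM
    rw [← hN, ← add_assoc, ← two_mul, Nat.dvd_add_left (dvd_pow g two_ne_zero)] at h1
    exact nM (hp.dvd_of_dvd_pow (((Nat.Prime.dvd_mul hp).1 h1).resolve_left h4))
  · convert a4.double (y := M * N / e ^ 3) (by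
      field_simp; linear_combination hN') (by positivity) using 2
    push_cast
    field_simp

theorem NP.descent (h : NP R M e) : ∃ k : ℤ, R = (2 * k + 1) • EP := by
  induction e using Nat.strong_induction_on generalizing R M with
  | _ e ih =>
  by_cases hx : -((M : ℚ) / e) ^ 2 = -1
  · rcases (hx ▸ h.2.2.2).eq_or has_EP with rfl | rfl
    · exact ⟨0, by simp⟩
    · exact ⟨-1, by simp⟩
  have he : 2 ≤ e := by
    by_contra he
    obtain rfl : e = 1 := by have := h.2.1; omega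
    have h1 := h.prim.bound
    obtain rfl : M = 1 := by have := h.1; nlinarith
    exact hx (by norm_num)
  obtain ⟨x₃, x₄, -, c2, c3, -, -, ν, c6⟩ := h.2.2.2.add has_EP hx
  have p0 := h.1
  have e1 : x₄ = (ν / ((M : ℚ) / e)) ^ 2 := by rw [div_pow, ← c6]; field_simp
  obtain ⟨R', u, hu, e2, hR'⟩ := (e1 ▸ c2).half (fun h0 => by
    rw [e1, h0] at c3; nlinarith [sq_nonneg ((M : ℚ) / e)])
  obtain ⟨M₁, e₁, M₂, e₂, n1, n2, hQ, -⟩ := h.add pp_EQ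
  have hb := h.prim.bound
  have fin : ∀ R'' M'' e'', NP R'' M'' e'' → (R = EP + (R'' + R'') ∨ R = -(EP - (R'' + R''))) →
      ∃ k : ℤ, R = (2 * k + 1) • EP := fun R'' M'' e'' h'' hR => by
    obtain ⟨B, hB⟩ := h''.double
    obtain ⟨M₃, e₃, M₄, e₄, n3, n4, hP, -⟩ := np_EP.add hB
    have h15 : e₃ * e₄ ≤ 15 * e ^ 3 := by
      have q1 := n1.2.1
      have q2 := n2.2.1
      rcases hR with hR | hR
      · have g1 := ((hR ▸ h).unique n3).2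
        have g2 := (n2.unique (by convert n4.neg using 1; rw [hR]; abel)).2
        rw [← g1, ← g2]; nlinarith [Nat.le_mul_of_pos_left e₂ q1]
      · have g1 := ((hR ▸ h).unique n4.neg).2
        have g2 := (n1.unique (by convert n3 using 1; rw [hR]; abel)).2
        rw [← g1, ← g2]; nlinarith [Nat.le_mul_of_pos_right e₁ q2]
    have hlt : e'' < e := by
      by_contra hge
      have g1 : e ^ 4 ≤ e'' ^ 4 := Nat.pow_le_pow_left (not_lt.1 hge) 4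
      have g2 : (2 * e ^ 4) ^ 2 ≤ (M'' ^ 4 + 2 * e'' ^ 4) ^ 2 := Nat.pow_le_pow_left (by omega) 2
      have g3 : 2 ^ 5 ≤ e ^ 5 := Nat.pow_le_pow_left he 5
      have g4 : 0 < e ^ 3 := by positivity
      nlinarith [Nat.zero_le (B ^ 2)]
    obtain ⟨k, rfl⟩ := ih e'' hlt h''
    rcases hR with rfl | rfl
    · exact ⟨2 * k + 1, by module⟩
    · exact ⟨2 * k, by module⟩
  rcases hR' with hR' | hR'
  · obtain ⟨A, B, hA⟩ := hR'.pp hu
    obtain ⟨M₅, e₅, -, -, n5, -⟩ := np_EP.add hA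
    exact fin _ _ _ n5 (.inr (by rw [sub_eq_iff_eq_add.1 e2]; abel))
  · obtain ⟨M₅, e₅, n5⟩ := hR'.np hu
    exact fin _ _ _ n5 (.inl (by rw [sub_eq_iff_eq_add.1 e2]; abel))

theorem adj_iff (he' : 0 < e') : Adj M e M' e' ↔
    ((M : ℚ) ^ 2 * (2 : ℕ) ^ 2 + (3 : ℕ) ^ 2 * e ^ 2) ^ 2 * (-((M' : ℚ) / e') ^ 2) ^ 2 +
      2 * ((3 : ℕ) ^ 2 * e ^ 2 - M ^ 2 * (2 : ℕ) ^ 2) *
        (M ^ 2 * (3 : ℕ) ^ 2 + 2 * e ^ 2 * (2 : ℕ) ^ 2) * (-((M' : ℚ) / e') ^ 2) +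
      (2 * e ^ 2 * (2 : ℕ) ^ 2 - M ^ 2 * (3 : ℕ) ^ 2) ^ 2 = 0 := by
  rw [Adj, ← mul_eq_zero_iff_left (show (e' : ℚ) ^ 4 ≠ 0 by positivity), ← Nat.cast_inj (R := ℚ),
    ← sub_eq_zero]
  refine iff_of_eq (congrArg (· = 0) ?_)
  push_cast
  field_simp
  ring

theorem exists_chain : ∃ M e : ℕ → ℕ, e 0 = 1 ∧ M 0 = 1 ∧ e 1 = 13 ∧
    (∀ j, e (j + 2) * e j = 9 * e (j + 1) ^ 2 + 4 * M (j + 1) ^ 2) ∧
    (∀ m d, Prim m d ↔ ∃ j, m = M j ∧ d = e j) ∧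
    (∀ j, Adj (M j) (e j) (M (j + 1)) (e (j + 1))) ∧
    (∀ i j, Adj (M j) (e j) (M i) (e i) → e i = e (j + 1) ∨ e i = e (j - 1)) := by
  have hex : ∀ j : ℕ, ∃ M e, NP (EP + j • (EP + EP)) M e := fun j => by
    induction j with
    | zero => exact ⟨1, 1, by simpa using np_EP⟩
    | succ j ih =>
      obtain ⟨M, e, h⟩ := ih
      obtain ⟨M₁, e₁, -, -, n1, -⟩ := h.add pp_EQ
      exact ⟨M₁, e₁, by rwa [succ_nsmul, ← add_assoc]⟩
  choose M e h using hex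
  have h0 : M 0 = 1 ∧ e 0 = 1 := (h 0).unique (by simpa using np_EP)
  have step : ∀ j, e (j + 1) * e (j - 1) = 9 * e j ^ 2 + 4 * M j ^ 2 ∧
      ∀ i, Adj (M j) (e j) (M i) (e i) ↔
        (M i = M (j + 1) ∧ e i = e (j + 1)) ∨ (M i = M (j - 1) ∧ e i = e (j - 1)) := fun j => by
    obtain ⟨M₁, e₁, M₂, e₂, n1, n2, g1, g2⟩ := (h j).add pp_EQ
    obtain ⟨rfl, rfl⟩ := n1.unique (by have := h (j + 1); rwa [succ_nsmul, ← add_assoc] at this)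
    obtain ⟨rfl, rfl⟩ : M₂ = M (j - 1) ∧ e₂ = e (j - 1) := by
      cases j with
      | zero => exact n2.unique (by convert (h 0).neg using 1; simp)
      | succ j =>
        rw [Nat.add_sub_cancel]
        exact n2.unique (by convert h j using 1; rw [succ_nsmul]; abel)
    refine ⟨by rw [g1]; ring, fun i => ?_⟩
    rw [adj_iff (h i).2.1, g2]
    exact or_congr ⟨np_unique_aux (h i) (h _), fun g => by rw [g.1, g.2]⟩
      ⟨np_unique_aux (h i) (h _), fun g => by rw [g.1, g.2]⟩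
  refine ⟨M, e, h0.2, h0.1, by simpa [h0.1, h0.2] using (step 0).1, fun j => (step (j + 1)).1,
    fun m d => ⟨fun hp => ?_, ?_⟩, fun j => ((step j).2 _).2 (.inl ⟨rfl, rfl⟩),
    fun i j ha => (((step j).2 i).1 ha).imp And.right And.right⟩
  · obtain ⟨R, hR⟩ := hp.np
    obtain ⟨k, rfl⟩ := hR.descent
    obtain ⟨j, rfl | rfl⟩ := k.eq_nat_or_neg
    · exact ⟨j, hR.unique (by convert h j using 1; module)⟩
    · cases j with
      | zero => exact ⟨0, hR.unique (by convert h 0 using 1; simp)⟩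
      | succ j => exact ⟨j, hR.unique (by convert (h j).neg using 1; push_cast; module)⟩
  · rintro ⟨j, rfl, rfl⟩
    exact (h j).prim

end Crest.Agent.R323
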