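import Crest.Agent.R323.Defs

/-!
# R323 / EllA : the curve `y² = x³ - 2x`, addition formulas for abscissae, square classes
-/

set_option autoImplicit false

namespace Crest.Agent.R323

open WeierstrassCurve.Affine

/-- the curve `y² = x³ - 2 x` -/
def EW : WeierstrassCurve.Affine ℚ := ⟨0, 0, 0, -2, 0⟩

/-- `R` is an affine point with abscissa `x` -/
def Has (R : EW.Point) (x : ℚ) : Prop := ∃ y h, R = Point.some x y h

theorem ew_nonsingular {x y : ℚ} : EW.Nonsingular x y ↔ y ^ 2 = x ^ 3 - 2 * x := by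
  rw [← equation_iff_nonsingular_of_Δ_ne_zero (by
    simp [EW, WeierstrassCurve.Δ, WeierstrassCurve.b₂, WeierstrassCurve.b₄, WeierstrassCurve.b₆,
      WeierstrassCurve.b₈]), equation_iff]
  simp only [EW]
  constructor <;> intro h <;> linear_combination h

theorem Has.eqn {R : EW.Point} {x : ℚ} (h : Has R x) : ∃ y, y ^ 2 = x ^ 3 - 2 * x := by
  obtain ⟨y, h, -⟩ := h
  exact ⟨y, ew_nonsingular.1 h⟩

theorem exists_has {x y : ℚ} (h : y ^ 2 = x ^ 3 - 2 * x) : ∃ R, Has R x :=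
  ⟨_, y, ew_nonsingular.2 h, rfl⟩

theorem Has.neg {R : EW.Point} {x : ℚ} (h : Has R x) : Has (-R) x := by
  obtain ⟨y, h, rfl⟩ := h
  exact ⟨_, _, rfl⟩

theorem Has.unique {R : EW.Point} {x x' : ℚ} (h : Has R x) (h' : Has R x') : x = x' := by
  obtain ⟨y, h, rfl⟩ := h
  obtain ⟨y', h', e⟩ := h'
  exact (Point.some.inj e).1

theorem Has.eq_or {R S : EW.Point} {x : ℚ} (h : Has R x) (h' : Has S x) : R = S ∨ R = -S := by
  obtain ⟨y, h, rfl⟩ := h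
  obtain ⟨y', h', rfl⟩ := h'
  exact Point.X_eq_iff.1 rfl

theorem Has.add {R S : EW.Point} {x₁ x₂ : ℚ} (h₁ : Has R x₁) (h₂ : Has S x₂) (hx : x₁ ≠ x₂) :
    ∃ x₃ x₄, Has (R + S) x₃ ∧ Has (R - S) x₄ ∧
      (x₁ - x₂) ^ 2 * (x₃ * x₄) = (x₁ * x₂ + 2) ^ 2 ∧
      (x₁ - x₂) ^ 2 * (x₃ + x₄) = 2 * (x₁ + x₂) * (x₁ * x₂ - 2) ∧
      (∃ ν, x₁ * x₂ * x₃ = ν ^ 2) ∧ ∃ ν, x₁ * x₂ * x₄ = ν ^ 2 := by
  obtain ⟨y₁, h₁, rfl⟩ := h₁
  obtain ⟨y₂, h₂, rfl⟩ := h₂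
  have e₁ := ew_nonsingular.1 h₁
  have e₂ := ew_nonsingular.1 h₂
  have hd : x₁ - x₂ ≠ 0 := sub_ne_zero.2 hx
  refine ⟨((y₁ - y₂) / (x₁ - x₂)) ^ 2 - x₁ - x₂, ((y₁ + y₂) / (x₁ - x₂)) ^ 2 - x₁ - x₂,
    ?_, ?_, ?_, ?_, ⟨(x₁ * y₂ - x₂ * y₁) / (x₁ - x₂), ?_⟩, ⟨(x₁ * y₂ + x₂ * y₁) / (x₁ - x₂), ?_⟩⟩
  · rw [Point.add_of_X_ne hx]
    have : EW.addX x₁ x₂ (EW.slope x₁ x₂ y₁ y₂) = ((y₁ - y₂) / (x₁ - x₂)) ^ 2 - x₁ - x₂ := by
      rw [slope_of_X_ne hx]; simp [EW]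
    rw [← this]; exact ⟨_, _, rfl⟩
  · rw [sub_eq_add_neg, Point.neg_some, Point.add_of_X_ne hx]
    have : EW.addX x₁ x₂ (EW.slope x₁ x₂ y₁ (EW.negY x₂ y₂)) =
        ((y₁ + y₂) / (x₁ - x₂)) ^ 2 - x₁ - x₂ := by
      rw [slope_of_X_ne hx]; simp [EW]
    rw [← this]; exact ⟨_, _, rfl⟩
  · field_simp
    linear_combination (y₁ ^ 2 - 2 * y₂ ^ 2 + x₁ ^ 3 - 2 * x₁ - 2 * (x₁ + x₂) * (x₁ - x₂) ^ 2) * e₁ +
      (y₂ ^ 2 + x₂ ^ 3 - 2 * x₂ - 2 * (x₁ ^ 3 - 2 * x₁) - 2 * (x₁ + x₂) * (x₁ - x₂) ^ 2) * e₂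
  · field_simp
    linear_combination 2 * e₁ + 2 * e₂
  · field_simp
    linear_combination (x₁ * x₂ - x₂ ^ 2) * e₁ + (x₁ * x₂ - x₁ ^ 2) * e₂
  · field_simp
    linear_combination (x₁ * x₂ - x₂ ^ 2) * e₁ + (x₁ * x₂ - x₁ ^ 2) * e₂

theorem Has.double {R : EW.Point} {x y : ℚ} (h : Has R x) (e : y ^ 2 = x ^ 3 - 2 * x) (hy : y ≠ 0) :
    Has (R + R) (((x ^ 2 + 2) / (2 * y)) ^ 2) := by
  obtain ⟨y₁, h₁, rfl⟩ := h
  have e₁ := ew_nonsingular.1 h₁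
  have hy₁ : y₁ ≠ 0 := by
    rintro rfl
    exact hy (pow_eq_zero_iff two_ne_zero |>.1 (by rw [e, ← e₁]; ring))
  have hn : y₁ ≠ EW.negY x y₁ := by
    simp only [negY, EW]; intro h; exact hy₁ (by linarith)
  rw [Point.add_self_of_Y_ne hn]
  have : EW.addX x x (EW.slope x x y₁ y₁) = ((x ^ 2 + 2) / (2 * y)) ^ 2 := by
    rw [slope_of_Y_ne rfl hn]
    simp only [addX, negY, EW]
    rw [div_pow, div_pow, mul_pow, e, show (y₁ - (-y₁ - 0 * x - 0)) ^ 2 = 2 ^ 2 * y₁ ^ 2 by ring, e₁]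
    have : x ^ 3 - 2 * x ≠ 0 := e ▸ pow_ne_zero 2 hy
    rw [eq_div_iff (mul_ne_zero (by norm_num) this)]
    simp only [sub_mul, add_mul, div_mul_cancel₀ _ (mul_ne_zero (by norm_num : (2 : ℚ) ^ 2 ≠ 0) this)]
    ring
  rw [← this]; exact ⟨_, _, rfl⟩

theorem not_sq_two (t : ℚ) : t ^ 2 ≠ 2 := fun h => by
  have : IsSquare ((2 : ℕ) : ℚ) := ⟨t, by push_cast; rw [← h]; ring⟩
  rw [Rat.isSquare_natCast_iff] at this
  revert this; norm_num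

/-- square class of the abscissa on `y² = x (x² + c)`, `c = ± 2^l` -/
theorem sq_class {x y : ℚ} {c : ℤ} (hc : ∀ p : ℤ, Prime p → p ∣ c → p ∣ 2) (hx : x ≠ 0)
    (h : y ^ 2 = x * (x ^ 2 + c)) :
    ∃ u : ℚ, u ≠ 0 ∧ (x = u ^ 2 ∨ x = -u ^ 2 ∨ x = 2 * u ^ 2 ∨ x = -(2 * u ^ 2)) := by
  obtain ⟨a, b, hab, hb0, rfl⟩ : ∃ a b : ℤ, IsCoprime a b ∧ (b : ℚ) ≠ 0 ∧ x = a / b :=
    ⟨x.num, x.den, Int.isCoprime_iff_gcd_eq_one.2 x.reduced, by simp, by simp [Rat.num_div_den]⟩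
  have ha0 : a ≠ 0 := by rintro rfl; simp at hx
  have hb0' : b ≠ 0 := by exact_mod_cast hb0
  have hsq : IsSquare (a * b * (a ^ 2 + c * b ^ 2)) := by
    rw [← Rat.isSquare_intCast_iff]
    refine ⟨y * b ^ 2, ?_⟩
    push_cast
    rw [show y * b ^ 2 * (y * b ^ 2) = y ^ 2 * b ^ 4 by ring, h]
    field_simp
  obtain ⟨z, hz⟩ := hsq
  obtain ⟨m, e, hm⟩ := (Int.finiteMultiplicity_iff.2
    ⟨(by norm_num : (2 : ℤ).natAbs ≠ 1), mul_ne_zero ha0 hb0'⟩).exists_eq_pow_mul_and_not_dvd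
  generalize multiplicity 2 (a * b) = k at e
  have hm0 : m ≠ 0 := by rintro rfl; simp at hm
  have hcop : IsCoprime m (2 ^ k * (a ^ 2 + c * b ^ 2)) := by
    refine isCoprime_of_prime_dvd (fun h => hm0 h.1) fun p hp h1 h2 => ?_
    have h3 : ¬ p ∣ 2 := fun h3 =>
      hm ((hp.associated_of_dvd Int.prime_two h3).symm.dvd.trans h1)
    have h4 := (hp.dvd_or_dvd h2).resolve_left fun h4 => h3 (hp.dvd_of_dvd_pow h4)
    have h5 : ¬ (p ∣ a ∧ p ∣ b) := fun h5 => hp.not_unit (hab.isUnit_of_dvd' h5.1 h5.2)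
    rcases hp.dvd_or_dvd (e ▸ h1.mul_left _ : p ∣ a * b) with h6 | h6
    · rcases hp.dvd_or_dvd ((dvd_add_right (dvd_pow h6 two_ne_zero)).1 h4) with h7 | h7
      · exact h3 (hc p hp h7)
      · exact h5 ⟨h6, hp.dvd_of_dvd_pow h7⟩
    · exact h5 ⟨hp.dvd_of_dvd_pow ((dvd_add_left ((dvd_pow h6 two_ne_zero).mul_left _)).1 h4), h6⟩
  obtain ⟨r, hr⟩ := Int.sq_of_gcd_eq_one (c := z) (Int.isCoprime_iff_gcd_eq_one.1 hcop)
    (by rw [sq z, ← hz, e]; ring)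
  have hr0 : (r : ℚ) ≠ 0 := by
    have : r ≠ 0 := by rintro rfl; simp [hm0] at hr
    exact_mod_cast this
  have e' : (a : ℚ) / b = 2 ^ k * m / b ^ 2 := by
    have : (a : ℚ) * b = 2 ^ k * m := by exact_mod_cast e
    rw [← this]; field_simp
  rw [e']
  obtain ⟨j, rfl | rfl⟩ := Nat.even_or_odd' k <;> refine ⟨2 ^ j * r / b, by positivity, ?_⟩ <;>
    rcases hr with rfl | rfl <;> push_cast
  · left; ring
  · right; left; ring
  · right; right; left; ring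
  · right; right; right; ring

/-- halving: a point whose abscissa is a nonzero square is twice a point with abscissa `± u²` -/
theorem Has.half {S : EW.Point} {t : ℚ} (ht : t ≠ 0) (h : Has S (t ^ 2)) :
    ∃ (R : EW.Point) (u : ℚ), u ≠ 0 ∧ S = R + R ∧ (Has R (u ^ 2) ∨ Has R (-u ^ 2)) := by
  obtain ⟨y, hy⟩ := h.eqn
  have key : ∃ s : ℚ, s ≠ 0 ∧ s ^ 4 + 8 = 4 * t ^ 2 * s ^ 2 := by
    have hX : (2 * (t ^ 2 + y / t)) ^ 2 + 8 = 4 * t ^ 2 * (2 * (t ^ 2 + y / t)) := by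
      field_simp; linear_combination 4 * hy
    generalize 2 * (t ^ 2 + y / t) = X at hX
    have hX0 : 0 < X := by
      by_contra h0
      nlinarith [sq_nonneg X, mul_nonneg (sq_nonneg t) (neg_nonneg.2 (not_lt.1 h0))]
    obtain ⟨u, hu, e⟩ := sq_class (x := X) (y := 2 * t * X) (c := 8)
      (fun p hp h => hp.dvd_of_dvd_pow (n := 3) h) hX0.ne' (by push_cast; linear_combination -X * hX)
    have := sq_pos_of_ne_zero hu
    rcases e with rfl | rfl | rfl | rfl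
    · exact ⟨u, hu, by linear_combination hX⟩
    · linarith
    · exact ⟨2 / u, by positivity, by field_simp; linear_combination 2 * hX⟩
    · linarith
  obtain ⟨s, hs, e⟩ := key
  have dbl : ∀ x : ℚ, x ^ 2 - s ^ 2 * x - 2 = 0 → ∃ R, S = R + R ∧ Has R x := fun x hx => by
    have hx0 : x ≠ 0 := by rintro rfl; norm_num at hx
    have e1 : (s * x) ^ 2 = x ^ 3 - 2 * x := by linear_combination -x * hx
    obtain ⟨R, hR⟩ := exists_has e1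
    have h2 := hR.double e1 (mul_ne_zero hs hx0)
    rw [show ((x ^ 2 + 2) / (2 * (s * x))) ^ 2 = t ^ 2 by
      field_simp; linear_combination (x ^ 2 + s ^ 2 * x - 2) * hx + x ^ 2 * e] at h2
    rcases h.eq_or h2 with e2 | e2
    · exact ⟨R, e2, hR⟩
    · exact ⟨-R, by rw [e2]; abel, hR.neg⟩
  have h1 : ((s ^ 2 + 2 * t * s) / 2) ^ 2 - s ^ 2 * ((s ^ 2 + 2 * t * s) / 2) - 2 = 0 := by
    linear_combination -e / 4
  generalize (s ^ 2 + 2 * t * s) / 2 = x at h1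
  have hx0 : x ≠ 0 := by rintro rfl; norm_num at h1
  obtain ⟨u, hu, e2⟩ := sq_class (x := x) (y := s * x) (c := -2) (fun p _ h => dvd_neg.1 h) hx0
    (by push_cast; linear_combination -x * h1)
  have h2 : (-2 / x) ^ 2 - s ^ 2 * (-2 / x) - 2 = 0 := by
    field_simp; linear_combination -2 * h1
  obtain ⟨R, a1, a2⟩ := dbl x h1
  obtain ⟨R', b1, b2⟩ := dbl _ h2
  rcases e2 with rfl | rfl | rfl | rfl
  · exact ⟨R, u, hu, a1, .inl a2⟩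
  · exact ⟨R, u, hu, a1, .inr a2⟩
  · exact ⟨R', 1 / u, by positivity, b1, .inr (by convert b2 using 1; field_simp)⟩
  · exact ⟨R', 1 / u, by positivity, b1, .inl (by convert b2 using 1; field_simp)⟩

end Crest.Agent.R323
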