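import Crest.Agent.R323.Psi

/-!
# R323 / Pow : exponentiation is single-fold

Plan.  `Ψ` from `exists_psi`.  `XR a n x y :⇔ x² + y² = a² y² + 1 ∧ y % (a-1) = n ∧ x ≤ Ψ a`.  For `a ≥ 37`:
`XR a n x y → x = xn a n ∧ y = yn a n` (`Pell.eq_pell`, `a^m ≤ xn m ≤ Ψ a < a^(a-1)`, `Pell.yn_modEq_a_sub_one`), and
`2^n ≤ a`, `n < a - 1` give `XR a n (xn a n) (yn a n)` (`xn a n ≤ (2a)^n` from `Pell.xn_succ_succ`).
For `b ≥ 2`: `c = b^n ↔ ∃ x₁ y₁ x₂ y₂, XR a₁ n x₁ y₁ ∧ XR a₂ n x₂ y₂ ∧ (y₂ (a₂ - b) + c) % μ = x₂ % μ` with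
`a₁ = b + c + n + 37`, `a₂ = x₁ + a₁`, `μ = 2 a₂ b - b² - 1` (write `a - 1`, `μ` as visibly positive numbers for `SFn.mod`):
`b^n ≤ a₁^n ≤ x₁ < a₂ ≤ μ`, `c < μ`, and `Pell.x_sub_y_dvd_pow`.  If `c = b^n` then `2^n ≤ a₁`, `2^n ≤ a₂`.
-/

set_option autoImplicit false

namespace Crest.Agent.R323

def pow_XR (Ψ : ℕ → ℕ) (a n x y : ℕ) : Prop :=
  x * x + y * y = a * a * (y * y) + 1 ∧ y % (a - 2 + 1) = n ∧ x ≤ Ψ a

def pow_R (Ψ : ℕ → ℕ) (b n c : ℕ) (y : Fin 4 → ℕ) : Prop :=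
  pow_XR Ψ (b + c + n + 37) n (y 0) (y 1) ∧ pow_XR Ψ (y 0 + (b + c + n + 37)) n (y 2) (y 3) ∧
    (y 3 * (y 0 + (b + c + n + 37) - b) + c) % (2 * (y 0 + (b + c + n + 37)) * b - b * b - 2 + 1) =
      y 2 % (2 * (y 0 + (b + c + n + 37)) * b - b * b - 2 + 1)

theorem pow_XR_sf {γ : Type} {Ψ : ℕ → ℕ} (hΨ : SFn fun v : Unit → ℕ => Ψ (v ()))
    {a n x y : (γ → ℕ) → ℕ} (ha : SFn a) (hn : SFn n) (hx : SFn x) (hy : SFn y) :
    SF fun v => pow_XR Ψ (a v) (n v) (x v) (y v) :=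
  (SF.eq ((hx.mul hx).add (hy.mul hy)) (((ha.mul ha).mul (hy.mul hy)).add (SFn.const 1))).and
    ((SF.eq (hy.mod ((ha.sub (SFn.const 2)).add (SFn.const 1)) fun _ => Nat.succ_pos _) hn).and
      (SF.le hx (hΨ.comp1 ha)))

theorem pow_pell_iff {a x y : ℕ} (a1 : 1 < a) :
    x * x + y * y = a * a * (y * y) + 1 ↔ x * x - (a * a - 1) * y * y = 1 := by
  have h1 : 1 ≤ a * a := Nat.mul_pos (by omega) (by omega)
  obtain ⟨d, hd⟩ := Nat.exists_eq_add_of_le h1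
  rw [hd, Nat.add_sub_cancel_left]
  have : (1 + d) * (y * y) = y * y + d * y * y := by ring
  omega

theorem pow_XR_eq {Ψ : ℕ → ℕ} {a n x y : ℕ} (a1 : 1 < a) (hΨ : Ψ a < a ^ (a - 1))
    (h : pow_XR Ψ a n x y) : x = Pell.xn a1 n ∧ y = Pell.yn a1 n := by
  obtain ⟨h1, h2, h3⟩ := h
  obtain ⟨m, rfl, rfl⟩ := Pell.eq_pell a1 ((pow_pell_iff a1).1 h1)
  have h4 : m < a - 1 :=
    (Nat.pow_lt_pow_iff_right a1).1 (((Pell.xn_ge_a_pow a1 m).trans h3).trans_lt hΨ)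
  have h5 : Pell.yn a1 m % (a - 1) = m % (a - 1) := Pell.yn_modEq_a_sub_one a1 m
  rw [show a - 2 + 1 = a - 1 by omega, h5, Nat.mod_eq_of_lt h4] at h2
  subst h2
  exact ⟨rfl, rfl⟩

theorem pow_XR_uniq {Ψ : ℕ → ℕ} {a n x y x' y' : ℕ} (ha : 2 ≤ a) (hΨ : Ψ a < a ^ (a - 1))
    (h : pow_XR Ψ a n x y) (h' : pow_XR Ψ a n x' y') : x = x' ∧ y = y' := by
  obtain ⟨e1, e2⟩ := pow_XR_eq ha hΨ h
  obtain ⟨e3, e4⟩ := pow_XR_eq ha hΨ h'
  exact ⟨e1.trans e3.symm, e2.trans e4.symm⟩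

theorem pow_xn_le {a : ℕ} (a1 : 1 < a) (n : ℕ) : Pell.xn a1 n ≤ (2 * a) ^ n := by
  have h : ∀ n, Pell.xn a1 (n + 1) ≤ 2 * a * Pell.xn a1 n := by
    intro n
    cases n with
    | zero => rw [Pell.xn_one, Pell.xn_zero]; omega
    | succ n => exact le_of_le_of_eq (Nat.le_add_right _ _) (Pell.xn_succ_succ a1 n)
  induction n with
  | zero => simp
  | succ n ih =>
    calc Pell.xn a1 (n + 1) ≤ 2 * a * Pell.xn a1 n := h n
      _ ≤ 2 * a * (2 * a) ^ n := Nat.mul_le_mul_left _ ih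
      _ = (2 * a) ^ (n + 1) := by ring

theorem pow_XR_mk {Ψ : ℕ → ℕ} {a n : ℕ} (a1 : 1 < a) (hn : n < a - 1) (hΨ : (2 * a) ^ n ≤ Ψ a) :
    pow_XR Ψ a n (Pell.xn a1 n) (Pell.yn a1 n) := by
  refine ⟨(pow_pell_iff a1).2 (Pell.pell_eq a1 n), ?_, (pow_xn_le a1 n).trans hΨ⟩
  have h5 : Pell.yn a1 n % (a - 1) = n % (a - 1) := Pell.yn_modEq_a_sub_one a1 n
  rw [show a - 2 + 1 = a - 1 by omega, h5, Nat.mod_eq_of_lt hn]

theorem pow_mod {a b : ℕ} (a1 : 1 < a) (hb : 2 ≤ b) (hab : b < a) (n : ℕ) :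
    a < 2 * a * b - b * b - 2 + 1 ∧
      Pell.xn a1 n ≡ Pell.yn a1 n * (a - b) + b ^ n [MOD (2 * a * b - b * b - 2 + 1)] := by
  have h1 : b * b + 2 + a ≤ 2 * a * b := by nlinarith
  refine ⟨by omega, ?_⟩
  have te : ((2 * a * b - b * b - 2 + 1 : ℕ) : ℤ) = 2 * a * b - b * b - 1 := by
    have : 2 * a * b - b * b - 2 + 1 + b * b + 1 = 2 * a * b := by omega
    have h2 : ((2 * a * b - b * b - 2 + 1 : ℕ) : ℤ) + b * b + 1 = 2 * a * b := by exact_mod_cast this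
    linarith
  apply Nat.modEq_of_dvd
  rw [te, Nat.cast_add, Nat.cast_mul, Int.ofNat_sub hab.le]
  exact Pell.x_sub_y_dvd_pow a1 b n

theorem SFn.pow {γ : Type} {b n : (γ → ℕ) → ℕ} (hb : SFn b) (hn : SFn n) (h2 : ∀ v, 2 ≤ b v) :
    SFn fun v => b v ^ n v := by
  obtain ⟨Ψ, hΨ, hb'⟩ := exists_psi
  refine SFn.of_rel (R := fun c v => ∃ y : Fin 4 → ℕ, pow_R Ψ (b v) (n v) c y) ?_ ?_
  · refine SF.exF (R := fun (y : Fin 4 → ℕ) (v : Option γ → ℕ) =>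
      pow_R Ψ (b fun i => v (some i)) (n fun i => v (some i)) (v none) y) ?_ ?_
    · have y0 := SFn.var (α := Option γ ⊕ Fin 4) (.inr 0)
      have y1 := SFn.var (α := Option γ ⊕ Fin 4) (.inr 1)
      have y2 := SFn.var (α := Option γ ⊕ Fin 4) (.inr 2)
      have y3 := SFn.var (α := Option γ ⊕ Fin 4) (.inr 3)
      have c := SFn.var (α := Option γ ⊕ Fin 4) (.inl none)
      have b' := hb.ren (γ := Option γ ⊕ Fin 4) fun i => .inl (some i)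
      have n' := hn.ren (γ := Option γ ⊕ Fin 4) fun i => .inl (some i)
      have a1 := ((b'.add c).add n').add (SFn.const 37)
      have a2 := y0.add a1
      have μ := ((((((SFn.const 2).mul a2).mul b').sub (b'.mul b')).sub (SFn.const 2)).add
        (SFn.const 1))
      exact (pow_XR_sf hΨ a1 n' y0 y1).and ((pow_XR_sf hΨ a2 n' y2 y3).and
        (SF.eq (((y3.mul (a2.sub b')).add c).mod μ fun _ => Nat.succ_pos _)
          (y2.mod μ fun _ => Nat.succ_pos _)))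
    · rintro v y y' ⟨p1, p2, -⟩ ⟨q1, q2, -⟩
      obtain ⟨e0, e1⟩ := pow_XR_uniq (by omega) (hb' _ (by omega)).1 p1 q1
      rw [← e0] at q2
      obtain ⟨e2, e3⟩ := pow_XR_uniq (by omega) (hb' _ (by omega)).1 p2 q2
      funext i
      fin_cases i
      exacts [e0, e1, e2, e3]
  · intro c v
    have hb2 := h2 v
    generalize b v = B at hb2 ⊢
    generalize n v = N
    constructor
    · rintro ⟨y, p1, p2, p3⟩
      obtain ⟨e0, -⟩ := pow_XR_eq (by omega) (hb' _ (by omega)).1 p1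
      obtain ⟨e2, e3⟩ := pow_XR_eq (by omega) (hb' _ (by omega)).1 p2
      obtain ⟨k1, k2⟩ := pow_mod (a := y 0 + (B + c + N + 37)) (by omega) hb2 (by omega) N
      rw [← e2, ← e3] at k2
      have k3 : B ^ N ≤ y 0 := by
        rw [e0]
        exact (Nat.pow_le_pow_left (by omega) N).trans (Pell.xn_ge_a_pow _ N)
      have k4 := (Nat.ModEq.trans p3 k2).add_left_cancel' _
      exact Nat.ModEq.eq_of_lt_of_lt k4 (by omega) (by omega)
    · intro h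
      have k0 : 2 ^ N ≤ c := h ▸ Nat.pow_le_pow_left hb2 N
      have a1 : 1 < B + c + N + 37 := by omega
      have a2 : 1 < Pell.xn a1 N + (B + c + N + 37) := by omega
      refine ⟨![Pell.xn a1 N, Pell.yn a1 N, Pell.xn a2 N, Pell.yn a2 N], ?_, ?_, ?_⟩
      · exact pow_XR_mk a1 (by omega) ((hb' _ (by omega)).2 N (by omega))
      · exact pow_XR_mk a2 (by omega) ((hb' _ (by omega)).2 N (by omega))
      · have := (pow_mod a2 hb2 (by omega) N).2.symm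
        rw [← h] at this
        exact this

end Crest.Agent.R323
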