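import Crest.Agent.R323.Ball

/-!
# R323 / Prim : primitive recursive functions and r.e. sets are single-fold Diophantine

Plan.  `pair a b = σ (b² + a) + (1 - σ) (a² + a + b)` with `σ = 1 - (1 - (b - a))`; `c = (unpair x).1 ↔ ∃ d, pair c d = x`.
`primrec`: induction on `Nat.Primrec` (`SFn.natRec`).  `encode`: the code of `a : Fin n → ℕ` is the code of `List.ofFn a`,
`encode (x :: l) = pair x (encode l) + 1`.  `sf_of_re`: `Nat.Partrec.Code.exists_code`, `evaln_complete`; with the primitive
recursive `τ x k = encode (evaln k c x)` (zero iff `none`), `a ∈ S ↔ ∃ k, 0 < τ x k ∧ ∀ j < k, τ x j = 0`, `x = encode a`.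
-/

set_option autoImplicit false
set_option linter.unusedSectionVars false

namespace Crest.Agent.R323

variable {γ : Type} {f g : (γ → ℕ) → ℕ}

theorem SFn.pair (hf : SFn f) (hg : SFn g) : SFn fun v => Nat.pair (f v) (g v) := by
  have hs : SFn fun v => 1 - (1 - (g v - f v)) := (SFn.const 1).sub ((SFn.const 1).sub (hg.sub hf))
  refine ((hs.mul ((hg.mul hg).add hf)).add
    (((SFn.const 1).sub hs).mul (((hf.mul hf).add hf).add hg))).congr fun v => ?_
  unfold Nat.pair
  split_ifs with h
  · have e : 1 - (1 - (g v - f v)) = 1 := by omega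
    rw [e]; simp
  · have e : 1 - (1 - (g v - f v)) = 0 := by omega
    rw [e]; simp

theorem SFn.unpair1 (hf : SFn f) : SFn fun v => (Nat.unpair (f v)).1 := by
  refine SFn.of_rel (R := fun c v => ∃ d, Nat.pair c d = f v) ?_ ?_
  · refine SF.ex (R := fun d (v : Option γ → ℕ) => Nat.pair (v none) d = f fun i => v (some i)) ?_ ?_
    · exact SF.eq ((SFn.var (some none)).pair (SFn.var none)) hf.weak.weak
    · intro v x y hx hy
      exact (Nat.pair_eq_pair.1 (hx.trans hy.symm)).2
  · intro x v
    constructor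
    · rintro ⟨d, h⟩
      rw [← h, Nat.unpair_pair]
    · rintro rfl
      exact ⟨_, Nat.pair_unpair _⟩

theorem SFn.unpair2 (hf : SFn f) : SFn fun v => (Nat.unpair (f v)).2 := by
  refine SFn.of_rel (R := fun c v => ∃ d, Nat.pair d c = f v) ?_ ?_
  · refine SF.ex (R := fun d (v : Option γ → ℕ) => Nat.pair d (v none) = f fun i => v (some i)) ?_ ?_
    · exact SF.eq ((SFn.var none).pair (SFn.var (some none))) hf.weak.weak
    · intro v x y hx hy
      exact (Nat.pair_eq_pair.1 (hx.trans hy.symm)).1
  · intro x v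
    constructor
    · rintro ⟨d, h⟩
      rw [← h, Nat.unpair_pair]
    · rintro rfl
      exact ⟨_, Nat.pair_unpair _⟩

theorem SFn.primrec {F : ℕ → ℕ} (hF : Nat.Primrec F) : SFn fun v : Unit → ℕ => F (v ()) := by
  induction hF with
  | zero => exact SFn.const 0
  | succ => exact (SFn.var ()).add (SFn.const 1)
  | left => exact (SFn.var ()).unpair1
  | right => exact (SFn.var ()).unpair2
  | pair _ _ ih1 ih2 => exact ih1.pair ih2
  | comp _ _ ih1 ih2 => exact ih1.comp1 ih2
  | @prec F G _ _ ih1 ih2 =>
    exact SFn.natRec ih1 (G := fun z y IH => G (Nat.pair z (Nat.pair y IH)))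
      (ih2.comp1 ((SFn.var 0).pair ((SFn.var 1).pair (SFn.var 2))))
      (SFn.var ()).unpair1 (SFn.var ()).unpair2

theorem prim_encode_eq {n : ℕ} (a : Fin n → ℕ) :
    @Encodable.encode _ Primcodable.toEncodable a = Encodable.encode (List.ofFn a) := by
  have : @Encodable.encode _ Primcodable.toEncodable a =
      Encodable.encode (List.Vector.ofFn a).toList := rfl
  rw [this, List.Vector.toList_ofFn]

theorem prim_encode_list (n : ℕ) : SFn fun a : Fin n → ℕ => Encodable.encode (List.ofFn a) := by
  induction n with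
  | zero => exact (SFn.const 0).congr fun v => by simp
  | succ n ih =>
    refine (((SFn.var 0).pair (ih.ren Fin.succ)).add (SFn.const 1)).congr fun v => ?_
    rw [List.ofFn_succ, Encodable.encode_list_cons]
    rfl

theorem SFn.encode (n : ℕ) : SFn fun a : Fin n → ℕ => @Encodable.encode _ Primcodable.toEncodable a := by
  exact (prim_encode_list n).congr fun v => (prim_encode_eq v).symm

theorem sf_of_re {n : ℕ} {S : Set (Fin n → ℕ)} (hS : REPred fun a => a ∈ S) :
    SF fun a => a ∈ S := by
  obtain ⟨c, hc⟩ := Nat.Partrec.Code.exists_code.1 hS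
  let τ : ℕ → ℕ := fun y => Encodable.encode (Nat.Partrec.Code.evaln y.unpair.2 c y.unpair.1)
  have hτ : Nat.Primrec τ := by
    refine Primrec.nat_iff.1 (Primrec.encode.comp ?_)
    exact Nat.Partrec.Code.primrec_evaln.comp
      (((Primrec.snd.comp Primrec.unpair).pair (Primrec.const c)).pair
        (Primrec.fst.comp Primrec.unpair))
  have hT := SFn.primrec hτ
  let e : (Fin n → ℕ) → ℕ := fun a => @Encodable.encode _ Primcodable.toEncodable a
  have he : SFn e := SFn.encode n
  have hpos : ∀ a k, 0 < τ (Nat.pair (e a) k) ↔ ∃ x, x ∈ Nat.Partrec.Code.evaln k c (e a) := by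
    intro a k
    simp only [τ, Nat.unpair_pair]
    cases Nat.Partrec.Code.evaln k c (e a) <;> simp
  have hmem : ∀ a, a ∈ S ↔ ∃ k, 0 < τ (Nat.pair (e a) k) := by
    intro a
    simp only [hpos]
    rw [exists_comm]
    simp only [← Nat.Partrec.Code.evaln_complete, hc, e]
    simp
  have hE := SF.ex (R := fun k (a : Fin n → ℕ) => 0 < τ (Nat.pair (e a) k) ∧
      ∀ j < k, τ (Nat.pair (e a) j) = 0)
    ((SF.lt (SFn.const 0) (hT.comp1 (he.weak.pair (SFn.var none)))).and
      (SF.ball (R := fun j (v : Option (Fin n) → ℕ) => τ (Nat.pair (e fun i => v (some i)) j) = 0)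
        (SF.eq (hT.comp1 (he.weak.weak.pair (SFn.var none))) (SFn.const 0)) (SFn.var none)))
    (by
      rintro v x y ⟨hx1, hx2⟩ ⟨hy1, hy2⟩
      rcases lt_trichotomy x y with h | h | h
      · have := hy2 x h; omega
      · exact h
      · have := hx2 y h; omega)
  refine hE.congr fun a => ⟨fun ⟨k, hk, _⟩ => (hmem a).2 ⟨k, hk⟩, fun h => ?_⟩
  classical
  have h' := (hmem a).1 h
  exact ⟨Nat.find h', Nat.find_spec h', fun j hj => by have := Nat.find_min h' hj; omega⟩

end Crest.Agent.R323
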