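import Crest.Agent.R323.Basic
import Crest.Agent.R323.Ell

/-!
# R323 / Psi : a single-fold function of quasi-polynomial growth

Plan.  `M`, `e` from `exists_chain`; `U j = 9 e_j² + 4 M_j²`, `9 e_j² ≤ U j ≤ 15 e_j²` (`M⁴ ≤ 2 e⁴`).
`ρ 0 = 1`, `ρ (j+1) = e (j+1) / e j` (in `ℚ`); `ρ j = e_j e_{j+1} / U j`, `ρ (j+1) = ρ j * (U j / e_j²)`, so
`9 ρ j ≤ ρ (j+1) ≤ 15 ρ j`, `9^j ≤ ρ j ≤ 15^j`, `e` is strictly increasing.  For `u = a⁴ + 1` let `j` be the unique index with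
`ρ j ≤ u < ρ (j+1)` and `Ψ a = e (j+1)`.  Graph: `x = Ψ a ↔ ∃ (m, d, m'), Prim m d ∧ Prim m' x ∧ Adj m d m' x ∧
d x ≤ u (9 d² + 4 m²) ∧ u d < x` (`u d < x` excludes `x = e (j - 1)`; uniqueness of the witnesses by strict monotonicity;
`Prim` is `SF` by `SF.coprime`, `SF.ex`).  Bounds: `e (j+1) = ∏_{1 ≤ i ≤ j+1} ρ i`, so
`9^((j+1)(j+2)/2) ≤ e (j+1) ≤ (15 u)^(j+1) ≤ a^(5 (j+1))`; `9^j ≤ a⁴ + 1` and `a ≥ 37` give `5 (j+1) < a - 1`
(if `a ≤ 5j + 6` then `j ≥ 7` and `9^j > (5j+6)^4 + 1`); `a⁴ < 16^(j+1)` gives `a < 2^(j+1)`, `n ≤ j`,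
`(2a)^n ≤ 2^((j+2) j)`, whose square is at most `9^((j+1)(j+2))`.
-/

set_option autoImplicit false

namespace Crest.Agent.R323

theorem SF.prim {γ : Type} {f g : (γ → ℕ) → ℕ} (hf : SFn f) (hg : SFn g) :
    SF fun v => Prim (f v) (g v) := by
  have h1 := SF.ex (R := fun N v => f v ^ 4 + N ^ 2 = 2 * g v ^ 4)
    (SF.eq ((hf.weak.npow 4).add ((SFn.var none).npow 2)) ((SFn.const 2).mul (hg.weak.npow 4)))
    (fun v x y hx hy => Nat.pow_left_injective (n := 2) (by norm_num) (by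
      show x ^ 2 = y ^ 2
      omega))
  exact ((SF.coprime hf hg).and h1).congr fun v => and_assoc

theorem psi_adj {γ : Type} {m d m' x : (γ → ℕ) → ℕ} (hm : SFn m) (hd : SFn d) (hm' : SFn m')
    (hx : SFn x) : SF fun v => Adj (m v) (d v) (m' v) (x v) := by
  have c := fun k => SFn.const (α := γ) k
  have W := ((c 8).mul (hd.npow 2)).add ((c 9).mul (hm.npow 2))
  have T := (hm'.npow 2).mul (hx.npow 2)
  exact SF.eq
    (((((((c 9).mul (hd.npow 2)).add ((c 4).mul (hm.npow 2))).npow 2).mul (hm'.npow 4)).add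
      ((((c 64).mul (hd.npow 4)).add ((c 81).mul (hm.npow 4))).mul (hx.npow 4))).add
      ((((c 8).mul (hm.npow 2)).mul W).mul T))
    ((((c 144).mul ((hd.npow 2).mul (hm.npow 2))).mul (hx.npow 4)).add
      ((((c 18).mul (hd.npow 2)).mul W).mul T))

theorem psi_nine (j : ℕ) (hj : 7 ≤ j) : (5 * j + 6) ^ 4 + 1 < 9 ^ j := by
  induction j, hj using Nat.le_induction with
  | base => norm_num
  | succ j hj ih =>
    have h1 : (2 * (5 * (j + 1) + 6)) ^ 4 ≤ (3 * (5 * j + 6)) ^ 4 := Nat.pow_le_pow_left (by omega) 4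
    rw [mul_pow, mul_pow] at h1
    rw [pow_succ 9 j]
    omega

theorem exists_psi : ∃ Ψ : ℕ → ℕ, SFn (fun v : Unit → ℕ => Ψ (v ())) ∧
    ∀ a, 37 ≤ a → Ψ a < a ^ (a - 1) ∧ ∀ n, 2 ^ n ≤ a → (2 * a) ^ n ≤ Ψ a := by
  obtain ⟨M, e, h0, hM0, h1, hrec, hprim, hadj, hadj'⟩ := exists_chain
  have hP : ∀ j, Prim (M j) (e j) := fun j => (hprim _ _).2 ⟨j, rfl, rfl⟩
  have hpos : ∀ j, 0 < e j := fun j => (hP j).1
  have hposR : ∀ j, (0 : ℝ) < e j := fun j => by exact_mod_cast hpos j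
  have hU : ∀ j, e (j + 1) * e (j - 1) = 9 * e j ^ 2 + 4 * M j ^ 2 := by
    intro j
    cases j with
    | zero => simp [h0, hM0, h1]
    | succ j => exact hrec j
  have hM : ∀ j, 4 * M j ^ 2 ≤ 6 * e j ^ 2 := by
    intro j
    obtain ⟨-, -, N, hN⟩ := hP j
    by_contra hlt
    have h2 : 3 * e j ^ 2 < 2 * M j ^ 2 := by omega
    have h3 : (3 * e j ^ 2) ^ 2 < (2 * M j ^ 2) ^ 2 := Nat.pow_lt_pow_left h2 two_ne_zero
    have h4 : (3 * e j ^ 2) ^ 2 = 9 * e j ^ 4 := by ring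
    have h5 : (2 * M j ^ 2) ^ 2 = 4 * M j ^ 4 := by ring
    omega
  let ρ : ℕ → ℝ := fun j => (e j : ℝ) / e (j - 1)
  have ρ0 : ρ 0 = 1 := by simp [ρ, h0]
  have ρs : ∀ j, ρ (j + 1) * e j = e (j + 1) := fun j => by
    simp only [ρ, Nat.add_sub_cancel]
    exact div_mul_cancel₀ _ (hposR j).ne'
  have ρpos : ∀ j, 0 < ρ j := fun j => div_pos (hposR _) (hposR _)
  have ρ9 : ∀ j, 9 * ρ j ≤ ρ (j + 1) := by
    intro j
    simp only [ρ, Nat.add_sub_cancel]
    rw [← mul_div_assoc, div_le_div_iff₀ (hposR _) (hposR _)]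
    have : 9 * e j * e j ≤ e (j + 1) * e (j - 1) := by rw [hU]; nlinarith
    exact_mod_cast this
  have ρ15 : ∀ j, ρ (j + 1) ≤ 15 * ρ j := by
    intro j
    simp only [ρ, Nat.add_sub_cancel]
    rw [← mul_div_assoc, div_le_div_iff₀ (hposR _) (hposR _)]
    have : e (j + 1) * e (j - 1) ≤ 15 * e j * e j := by
      rw [hU]; have := hM j; nlinarith
    exact_mod_cast this
  have ρlo : ∀ j, (9 : ℝ) ^ j ≤ ρ j := by
    intro j
    induction j with
    | zero => simp [ρ0]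
    | succ j ih => rw [pow_succ]; linarith [ρ9 j]
  have ρhi : ∀ j, ρ j ≤ (15 : ℝ) ^ j := by
    intro j
    induction j with
    | zero => simp [ρ0]
    | succ j ih => rw [pow_succ]; linarith [ρ15 j]
  have ρmono : StrictMono ρ := strictMono_nat_of_lt_succ fun j => by linarith [ρ9 j, ρpos j]
  have emono : StrictMono e := strictMono_nat_of_lt_succ fun j => by
    have a1 : ρ 0 < ρ (j + 1) := ρmono (Nat.succ_pos j)
    have a2 : (e j : ℝ) < e (j + 1) := by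
      rw [← ρs j]; rw [ρ0] at a1; nlinarith [hposR j]
    exact_mod_cast a2
  have hex : ∀ a : ℕ, ∃ j, ρ j ≤ (a ^ 4 + 1 : ℕ) ∧ ((a ^ 4 + 1 : ℕ) : ℝ) < ρ (j + 1) := by
    intro a
    have hne : ∃ j, ((a ^ 4 + 1 : ℕ) : ℝ) < ρ (j + 1) := by
      obtain ⟨j, hj⟩ := pow_unbounded_of_one_lt ((a ^ 4 + 1 : ℕ) : ℝ) (by norm_num : (1 : ℝ) < 9)
      exact ⟨j, hj.trans_le ((ρlo j).trans (ρmono.monotone (Nat.le_succ j)))⟩
    classical
    refine ⟨Nat.find hne, ?_, Nat.find_spec hne⟩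
    rcases h : Nat.find hne with _ | k
    · rw [ρ0]; exact_mod_cast Nat.le_add_left 1 _
    · exact not_lt.1 (Nat.find_min hne (m := k) (by omega))
  choose J hJ1 hJ2 using hex
  have huniq : ∀ a j, ρ j ≤ (a ^ 4 + 1 : ℕ) → ((a ^ 4 + 1 : ℕ) : ℝ) < ρ (j + 1) → j = J a := by
    intro a j a1 a2
    have b1 : j < J a + 1 := ρmono.lt_iff_lt.1 (a1.trans_lt (hJ2 a))
    have b2 : J a < j + 1 := ρmono.lt_iff_lt.1 ((hJ1 a).trans_lt a2)
    omega
  have c1 : ∀ u j : ℕ, ρ j ≤ u ↔ e j * e (j + 1) ≤ u * (9 * e j ^ 2 + 4 * M j ^ 2) := by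
    intro u j
    rw [← hU, mul_comm (e (j + 1)), ← mul_assoc, Nat.mul_le_mul_right_iff (hpos _)]
    simp only [ρ]
    rw [div_le_iff₀ (hposR _)]
    exact_mod_cast Iff.rfl
  have c2 : ∀ u j : ℕ, (u : ℝ) < ρ (j + 1) ↔ u * e j < e (j + 1) := by
    intro u j
    simp only [ρ, Nat.add_sub_cancel]
    rw [lt_div_iff₀ (hposR _)]
    exact_mod_cast Iff.rfl
  have key : ∀ a x m d m' : ℕ, (Prim m d ∧ Prim m' x ∧ Adj m d m' x ∧
      d * x ≤ (a ^ 4 + 1) * (9 * d ^ 2 + 4 * m ^ 2) ∧ (a ^ 4 + 1) * d < x) ↔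
      (m = M (J a) ∧ d = e (J a) ∧ m' = M (J a + 1) ∧ x = e (J a + 1)) := by
    intro a x m d m'
    constructor
    · rintro ⟨p1, p2, p3, p4, p5⟩
      obtain ⟨j, rfl, rfl⟩ := (hprim _ _).1 p1
      obtain ⟨i, rfl, rfl⟩ := (hprim _ _).1 p2
      have q1 : e j < e i := lt_of_le_of_lt (Nat.le_mul_of_pos_left _ (Nat.succ_pos _)) p5
      have q2 : e (j - 1) ≤ e j := emono.monotone (Nat.sub_le _ _)
      have q3 : e i = e (j + 1) := by
        rcases hadj' i j p3 with h | h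
        · exact h
        · omega
      obtain rfl : i = j + 1 := emono.injective q3
      obtain rfl : j = J a := huniq a j ((c1 _ _).2 p4) ((c2 _ _).2 p5)
      exact ⟨rfl, rfl, rfl, rfl⟩
    · rintro ⟨rfl, rfl, rfl, rfl⟩
      exact ⟨hP _, hP _, hadj _, (c1 _ _).1 (hJ1 a), (c2 _ _).1 (hJ2 a)⟩
  refine ⟨fun a => e (J a + 1), ?_, ?_⟩
  · refine SFn.of_rel (R := fun x v => ∃ y : Fin 3 → ℕ, Prim (y 0) (y 1) ∧ Prim (y 2) x ∧
      Adj (y 0) (y 1) (y 2) x ∧ y 1 * x ≤ (v () ^ 4 + 1) * (9 * y 1 ^ 2 + 4 * y 0 ^ 2) ∧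
        (v () ^ 4 + 1) * y 1 < x) ?_ ?_
    · refine SF.exF (R := fun (y : Fin 3 → ℕ) (v : Option Unit → ℕ) =>
        Prim (y 0) (y 1) ∧ Prim (y 2) (v none) ∧
          Adj (y 0) (y 1) (y 2) (v none) ∧
          y 1 * v none ≤ (v (some ()) ^ 4 + 1) * (9 * y 1 ^ 2 + 4 * y 0 ^ 2) ∧
          (v (some ()) ^ 4 + 1) * y 1 < v none) ?_ ?_
      · have y0 := SFn.var (α := Option Unit ⊕ Fin 3) (.inr 0)
        have y1 := SFn.var (α := Option Unit ⊕ Fin 3) (.inr 1)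
        have y2 := SFn.var (α := Option Unit ⊕ Fin 3) (.inr 2)
        have x := SFn.var (α := Option Unit ⊕ Fin 3) (.inl none)
        have u := ((SFn.var (α := Option Unit ⊕ Fin 3) (.inl (some ()))).npow 4).add (SFn.const 1)
        exact (SF.prim y0 y1).and ((SF.prim y2 x).and ((psi_adj y0 y1 y2 x).and
          ((SF.le (y1.mul x) (u.mul (((SFn.const 9).mul (y1.npow 2)).add
            ((SFn.const 4).mul (y0.npow 2))))).and (SF.lt (u.mul y1) x))))
      · intro v y y' hy hy'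
        obtain ⟨a1, a2, a3, -⟩ := (key _ _ _ _ _).1 hy
        obtain ⟨b1, b2, b3, -⟩ := (key _ _ _ _ _).1 hy'
        funext i
        fin_cases i
        · exact a1.trans b1.symm
        · exact a2.trans b2.symm
        · exact a3.trans b3.symm
    · intro x v
      constructor
      · rintro ⟨y, hy⟩
        exact ((key _ _ _ _ _).1 hy).2.2.2
      · intro h
        exact ⟨![M (J (v ())), e (J (v ())), M (J (v ()) + 1)], (key _ _ _ _ _).2 ⟨rfl, rfl, rfl, h⟩⟩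
  · intro a ha
    have a1 := hJ1 a
    have a2 := hJ2 a
    beta_reduce
    generalize J a = j at a1 a2 ⊢
    constructor
    · have b1 : ∀ i, i ≤ j + 1 → e i ≤ (a ^ 5) ^ i := by
        intro i
        induction i with
        | zero => intro _; simp [h0]
        | succ i ih =>
          intro hi
          have d1 : ρ (i + 1) ≤ ((15 * (a ^ 4 + 1) : ℕ) : ℝ) := by
            have := ρmono.monotone hi
            have := ρ15 j
            push_cast at a1 ⊢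
            linarith
          have d2 : 15 * (a ^ 4 + 1) ≤ a ^ 5 := by
            have : 1 ≤ a ^ 4 := Nat.one_le_pow _ _ (by omega)
            have : a ^ 5 = a * a ^ 4 := by ring
            nlinarith
          have d3 : (e (i + 1) : ℝ) ≤ ((15 * (a ^ 4 + 1) : ℕ) : ℝ) * e i := by
            rw [← ρs i]; exact mul_le_mul_of_nonneg_right d1 (hposR i).le
          have d4 : e (i + 1) ≤ 15 * (a ^ 4 + 1) * e i := by exact_mod_cast d3
          calc e (i + 1) ≤ 15 * (a ^ 4 + 1) * e i := d4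
            _ ≤ a ^ 5 * (a ^ 5) ^ i := Nat.mul_le_mul d2 (ih (by omega))
            _ = (a ^ 5) ^ (i + 1) := by ring
      have b2 : 9 ^ j ≤ a ^ 4 + 1 := by exact_mod_cast (ρlo j).trans a1
      have b3 : 5 * (j + 1) < a - 1 := by
        by_contra hc
        have d1 : a ≤ 5 * j + 6 := by omega
        have d2 := psi_nine j (by omega)
        have d3 : a ^ 4 ≤ (5 * j + 6) ^ 4 := Nat.pow_le_pow_left d1 4
        omega
      calc e (j + 1) ≤ (a ^ 5) ^ (j + 1) := b1 _ le_rfl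
        _ = a ^ (5 * (j + 1)) := by rw [← pow_mul]
        _ < a ^ (a - 1) := Nat.pow_lt_pow_right (by omega) b3
    · intro n hn
      have b1 : ∀ i, 3 ^ (i * (i + 1)) ≤ e i := by
        intro i
        induction i with
        | zero => simp [h0]
        | succ i ih =>
          have d3 : (9 : ℝ) ^ (i + 1) * e i ≤ e (i + 1) := by
            rw [← ρs i]; exact mul_le_mul_of_nonneg_right (ρlo _) (hposR i).le
          have d4 : 9 ^ (i + 1) * e i ≤ e (i + 1) := by exact_mod_cast d3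
          calc 3 ^ ((i + 1) * (i + 1 + 1)) = 9 ^ (i + 1) * 3 ^ (i * (i + 1)) := by
                rw [show (9 : ℕ) = 3 ^ 2 by norm_num, ← pow_mul, ← pow_add]; congr 1; ring
            _ ≤ 9 ^ (i + 1) * e i := Nat.mul_le_mul_left _ ih
            _ ≤ e (i + 1) := d4
      have b2 : a ^ 4 + 1 < 15 ^ (j + 1) := by exact_mod_cast a2.trans_le (ρhi _)
      have b3 : a < 2 ^ (j + 1) := by
        refine lt_of_pow_lt_pow_left₀ 4 (Nat.zero_le _) ?_
        have : 15 ^ (j + 1) ≤ 16 ^ (j + 1) := Nat.pow_le_pow_left (by norm_num) _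
        have : (2 ^ (j + 1)) ^ 4 = 16 ^ (j + 1) := by
          rw [← pow_mul, mul_comm, pow_mul]; norm_num
        omega
      have b4 : n ≤ j := by
        have : 2 ^ n < 2 ^ (j + 1) := hn.trans_lt b3
        have := (Nat.pow_lt_pow_iff_right (by norm_num : 1 < 2)).1 this
        omega
      have b5 : 2 * a ≤ 2 ^ (j + 2) := by rw [pow_succ]; omega
      calc (2 * a) ^ n ≤ (2 ^ (j + 2)) ^ n := Nat.pow_le_pow_left b5 n
        _ ≤ (2 ^ (j + 2)) ^ (j + 1) := Nat.pow_le_pow_right (by positivity) (by omega)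
        _ = 2 ^ ((j + 1) * (j + 1 + 1)) := by rw [← pow_mul]; congr 1; ring
        _ ≤ 3 ^ ((j + 1) * (j + 1 + 1)) := Nat.pow_le_pow_left (by norm_num) _
        _ ≤ e (j + 1) := b1 _

end Crest.Agent.R323
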