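import Crest.Agent.R323.Pow
import Crest.Agent.R323.Dig

/-!
# R323 / Vec : change of base and componentwise arithmetic on positional codes

Plan.  `digLt`: `and_mask_iff`, `odd_choose_iff`, `cd_const_mul`, `cd_one`.
`bc`: with `T = n + s + t n + s n + t + 2`, `U = cd T n (dg s X)` is the unique number with `n` digits `< 2^s` in base
`2^T` and `U % (2^T - 2^s) = X % 2^(s n)` (`SFn.of_rel`, `cd_modEq`, `cd_lt`, `dg_cd`, `cd_dg`); the value is
`U % (2^T - 2^t)` (`cd_lt'`).  `cd_change`: `cd t n (dg T (cd T n d)) = cd t n d`.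
`bc'`: `L = cd s n (dg s X · % 2^r)` is the unique number with digits `< 2^r` such that
`X % 2^(s n) = L + 2^r H` for some (unique) `H` with digits `< 2^(s-r)`; then `cd_change`.
`VF.mul`: `T = F t * G t + 1` bounds the products, `W = F T * G (T n)`, `cd_mul_cd`, `dg_diag`, `dg_cd`, `bc'` with
`s = T (n+1)`, `r = T`.  `VF.const`, `VF.id`: `cd_one`, `cd_id` in base `2^(n+1)` and `cd_change`.
-/

set_option autoImplicit false

namespace Crest.Agent.R323

variable {γ : Type} {n s t T r X U i k c : (γ → ℕ) → ℕ} {d d' : (γ → ℕ) → ℕ → ℕ}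

theorem cd_inj {t n : ℕ} {f g : ℕ → ℕ} (hf : ∀ i < n, f i < 2 ^ t) (hg : ∀ i < n, g i < 2 ^ t)
    (e : cd t n f = cd t n g) : ∀ i < n, f i = g i := by
  intro i hi
  have h1 := dg_cd hf i
  have h2 := dg_cd hg i
  rw [if_pos hi] at h1 h2
  rw [← h1, ← h2, e]

theorem cd_mod {r s T n : ℕ} {f : ℕ → ℕ} (hf : ∀ i < n, f i < 2 ^ r) (h1 : s < T)
    (h2 : n + r + s * n < T) : cd T n f % (2 ^ T - 2 ^ s) = cd s n f := by
  rw [cd_modEq h1.le n f]
  apply Nat.mod_eq_of_lt
  obtain ⟨m, rfl⟩ : ∃ m, T = m + 1 := ⟨T - 1, by omega⟩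
  have a1 := cd_lt' s hf
  have a2 : 2 ^ (n + r + s * n) ≤ 2 ^ m := Nat.pow_le_pow_right two_pos (by omega)
  have a3 : 2 ^ s ≤ 2 ^ m := Nat.pow_le_pow_right two_pos (by omega)
  rw [pow_succ]
  omega

theorem SFn.two_pow (hn : SFn n) : SFn fun v => 2 ^ n v := (SFn.const 2).pow hn fun _ => le_rfl

theorem SFn.dg (hs : SFn s) (hX : SFn X) (hi : SFn i) : SFn fun v => dg (s v) (X v) (i v) := by
  exact (hX.div (hs.mul hi).two_pow fun _ => by positivity).mod hs.two_pow fun _ => by positivity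

theorem SFn.choose (hn : SFn n) (hk : SFn k) : SFn fun v => (n v).choose (k v) := by
  have h1 := hn.add (SFn.const 1)
  refine (h1.dg ((h1.two_pow.add (SFn.const 1)).pow hn fun v => ?_) hk).congr
    fun v => (choose_eq_dg _ _).symm
  have : 0 < 2 ^ (n v + 1) := by positivity
  omega

theorem SFn.cd_one (hT : SFn T) (hn : SFn n) (hpos : ∀ v, 0 < T v) :
    SFn fun v => cd (T v) (n v) fun _ => 1 := by
  refine (((hT.mul hn).two_pow.sub (SFn.const 1)).div (hT.two_pow.sub (SFn.const 1))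
    fun v => ?_).congr fun v => (R323.cd_one (hpos v) _).symm
  exact Nat.sub_pos_of_lt (Nat.one_lt_two_pow (hpos v).ne')

theorem SF.digLt (hT : SFn T) (hr : SFn r) (hn : SFn n) (hU : SFn U) (hle : ∀ v, r v ≤ T v)
    (hpos : ∀ v, 0 < T v) :
    SF fun v => ∃ d : ℕ → ℕ, (∀ i < n v, d i < 2 ^ r v) ∧ U v = cd (T v) (n v) d := by
  have hM : SFn fun v => cd (T v) (n v) fun _ => 2 ^ r v - 1 :=
    ((hr.two_pow.sub (SFn.const 1)).mul (hT.cd_one hn hpos)).congr fun v => by
      rw [← cd_const_mul]; simp only [mul_one]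
  refine (SF.eq ((hM.choose hU).mod (SFn.const 2) fun _ => two_pos) (SFn.const 1)).congr fun v => ?_
  rw [odd_choose_iff, and_mask_iff (hle v)]

theorem SFn.bc (hn : SFn n) (hs : SFn s) (ht : SFn t) (hX : SFn X) :
    SFn fun v => cd (t v) (n v) (R323.dg (s v) (X v)) := by
  let T : (γ → ℕ) → ℕ := fun v => n v + s v + s v * n v + t v * n v + t v + 1
  have hT : SFn T := (((((hn.add hs).add (hs.mul hn)).add (ht.mul hn)).add ht).add (SFn.const 1))
  have hU : SFn fun v => cd (T v) (n v) (R323.dg (s v) (X v)) := by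
    refine SFn.of_rel (R := fun U v => (∃ d : ℕ → ℕ, (∀ i < n v, d i < 2 ^ s v) ∧
      U = cd (T v) (n v) d) ∧ U % (2 ^ T v - 2 ^ s v) = X v % 2 ^ (s v * n v)) ?_ ?_
    · refine (SF.digLt hT.weak hs.weak hn.weak (SFn.var none) (fun v => ?_) fun v => ?_).and
        (SF.eq ((SFn.var none).mod (hT.two_pow.sub hs.two_pow).weak fun v => ?_)
          (hX.mod (hs.mul hn).two_pow fun _ => by positivity).weak)
      · simp only [T]; omega
      · simp only [T]; omega
      · exact Nat.sub_pos_of_lt (Nat.pow_lt_pow_right one_lt_two (by simp only [T]; omega))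
    · intro U v
      have h1 : s v < T v := by simp only [T]; omega
      have h2 : n v + s v + s v * n v < T v := by simp only [T]; omega
      constructor
      · rintro ⟨⟨d, hd, rfl⟩, e⟩
        rw [cd_mod hd h1 h2, ← cd_dg] at e
        exact cd_congr (cd_inj hd (fun i _ => dg_lt _ _ _) e)
      · rintro rfl
        refine ⟨⟨_, fun i _ => dg_lt _ _ _, rfl⟩, ?_⟩
        rw [cd_mod (fun i _ => dg_lt _ _ _) h1 h2, cd_dg]
  refine (hU.mod (hT.two_pow.sub ht.two_pow) fun v => ?_).congr fun v => ?_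
  · exact Nat.sub_pos_of_lt (Nat.pow_lt_pow_right one_lt_two (by simp only [T]; omega))
  · exact cd_mod (fun i _ => dg_lt _ _ _) (by simp only [T]; omega) (by simp only [T]; omega)

theorem VF.of_base (hn : SFn n) (hT : SFn T) (hd : ∀ v, ∀ i < n v, d v i < 2 ^ T v)
    (h : SFn fun v => cd (T v) (n v) (d v)) : VF n d := by
  intro t ht
  refine (hn.bc hT ht h).congr fun v => cd_congr fun i hi => ?_
  rw [dg_cd (hd v), if_pos hi]

theorem SFn.bc' (hn : SFn n) (hs : SFn s) (hr : SFn r) (ht : SFn t) (hX : SFn X)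
    (hle : ∀ v, r v ≤ s v) (hpos : ∀ v, 0 < s v) :
    SFn fun v => cd (t v) (n v) fun i => R323.dg (s v) (X v) i % 2 ^ r v := by
  have hL : SFn fun v => cd (s v) (n v) fun i => R323.dg (s v) (X v) i % 2 ^ r v := by
    have hY : SFn fun v => X v % 2 ^ (s v * n v) := hX.mod (hs.mul hn).two_pow fun _ => by positivity
    refine SFn.of_rel (R := fun L v => (∃ d : ℕ → ℕ, (∀ i < n v, d i < 2 ^ r v) ∧
      L = cd (s v) (n v) d) ∧ (∃ d : ℕ → ℕ, (∀ i < n v, d i < 2 ^ (s v - r v)) ∧
        (X v % 2 ^ (s v * n v) - L) / 2 ^ r v = cd (s v) (n v) d) ∧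
      X v % 2 ^ (s v * n v) = L + 2 ^ r v * ((X v % 2 ^ (s v * n v) - L) / 2 ^ r v)) ?_ ?_
    · have hH := (hY.weak.sub (SFn.var none)).div hr.two_pow.weak fun _ => by positivity
      exact (SF.digLt hs.weak hr.weak hn.weak (SFn.var none) (fun v => hle _) fun v => hpos _).and
        ((SF.digLt hs.weak (hs.sub hr).weak hn.weak hH (fun v => Nat.sub_le _ _)
          fun v => hpos _).and (SF.eq hY.weak ((SFn.var none).add (hr.two_pow.weak.mul hH))))
    · intro L v
      have e0 : 2 ^ s v = 2 ^ r v * 2 ^ (s v - r v) := by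
        rw [← pow_add, Nat.add_sub_cancel' (hle v)]
      constructor
      · rintro ⟨⟨d, hd, rfl⟩, ⟨d', hd', e'⟩, e⟩
        rw [e', ← cd_const_mul, ← cd_add, ← cd_dg] at e
        have key := cd_inj (fun i _ => dg_lt _ _ _) (fun i hi => by
          have a1 := hd i hi
          have a2 := Nat.mul_le_mul_left (2 ^ r v) (hd' i hi)
          rw [Nat.mul_succ] at a2
          omega) e
        refine cd_congr fun i hi => ?_
        rw [key i hi, Nat.add_mul_mod_self_left, Nat.mod_eq_of_lt (hd i hi)]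
      · rintro rfl
        have e1 : X v % 2 ^ (s v * n v) =
            (cd (s v) (n v) fun i => R323.dg (s v) (X v) i % 2 ^ r v) +
              2 ^ r v * cd (s v) (n v) fun i => R323.dg (s v) (X v) i / 2 ^ r v := by
          rw [← cd_const_mul, ← cd_add, ← cd_dg]
          exact cd_congr fun i _ => (Nat.mod_add_div _ _).symm
        have e2 : (X v % 2 ^ (s v * n v) -
            cd (s v) (n v) fun i => R323.dg (s v) (X v) i % 2 ^ r v) / 2 ^ r v =
              cd (s v) (n v) fun i => R323.dg (s v) (X v) i / 2 ^ r v := by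
          rw [e1, Nat.add_sub_cancel_left, Nat.mul_div_cancel_left _ (by positivity)]
        refine ⟨⟨_, fun i _ => Nat.mod_lt _ (by positivity), rfl⟩, ⟨_, fun i _ => ?_, e2⟩, ?_⟩
        · exact Nat.div_lt_of_lt_mul (e0 ▸ dg_lt _ _ _)
        · rw [e2]; exact e1
  refine VF.of_base hn hs (fun v i _ => ?_) hL t ht
  exact (Nat.mod_lt _ (by positivity)).trans_le (Nat.pow_le_pow_right two_pos (hle v))

theorem VF.dg (hn : SFn n) (hs : SFn s) (hX : SFn X) : VF n fun v => R323.dg (s v) (X v) :=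
  fun _ ht => hn.bc hs ht hX

theorem VF.const (hn : SFn n) (hc : SFn c) : VF n fun v _ => c v := by
  have hT := hc.add (SFn.const 1)
  refine VF.of_base hn hT (fun v i _ => ?_) ?_
  · exact (Nat.lt_succ_self _).trans Nat.lt_two_pow_self
  · exact (hc.mul (hT.cd_one hn fun _ => Nat.succ_pos _)).congr fun v => by
      rw [← cd_const_mul]; simp only [mul_one]

theorem VF.id (hn : SFn n) : VF n fun _ i => i := by
  have hT := hn.add (SFn.const 1)
  refine VF.of_base hn hT (fun v i hi => ?_) ?_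
  · exact (hi.trans (Nat.lt_succ_self _)).trans Nat.lt_two_pow_self
  · have h1 := (hT.mul hn).two_pow
    refine (((((hn.mul h1).add (SFn.const 1)).sub (hT.cd_one hn fun _ => Nat.succ_pos _)).sub h1).div
      (hT.two_pow.sub (SFn.const 1)) fun v => ?_).congr fun v => (cd_id (Nat.succ_pos _) _).symm
    exact Nat.sub_pos_of_lt (Nat.one_lt_two_pow (Nat.succ_ne_zero _))

theorem VF.add (h : VF n d) (h' : VF n d') : VF n fun v i => d v i + d' v i := by
  intro t ht
  exact ((h t ht).add (h' t ht)).congr fun v => (cd_add _ _ _ _).symm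

theorem VF.mul (hn : SFn n) (h : VF n d) (h' : VF n d') : VF n fun v i => d v i * d' v i := by
  intro t ht
  let T : (γ → ℕ) → ℕ := fun v => cd 0 (n v) (d v) * cd 0 (n v) (d' v) + 1
  have hT : SFn T := ((h _ (SFn.const 0)).mul (h' _ (SFn.const 0))).add (SFn.const 1)
  have hW := (h T hT).mul (h' _ (hT.mul hn))
  refine (hn.bc' (hT.mul (hn.add (SFn.const 1))) hT ht hW (fun v => ?_) fun v => ?_).congr
    fun v => cd_congr fun i hi => ?_
  · rw [mul_add]; omega
  · exact Nat.mul_pos (Nat.succ_pos _) (Nat.succ_pos _)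
  · have hn0 : 0 < n v := by omega
    rw [dg_diag, cd_mul_cd, dg_cd, if_pos]
    · rw [add_mul, one_mul, Nat.mul_add_mod, Nat.mod_eq_of_lt hi, Nat.mul_add_div hn0,
        Nat.div_eq_of_lt hi, add_zero]
    · nlinarith
    · intro k hk
      have a1 := le_cd 0 (d v) (Nat.mod_lt k hn0)
      have a2 := le_cd 0 (d' v) (Nat.div_lt_of_lt_mul hk)
      exact (Nat.lt_succ_of_le (Nat.mul_le_mul a1 a2)).trans Nat.lt_two_pow_self

theorem VF.poly {δ : Type} {p : (δ → ℕ) → ℕ} (hp : IsP p) (hn : SFn n)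
    {x : δ → (γ → ℕ) → ℕ → ℕ} (hx : ∀ k, VF n (x k)) : VF n fun v i => p fun k => x k v i := by
  induction hp with
  | proj i => exact hx i
  | const c => exact VF.const hn (SFn.const c)
  | add _ _ ih1 ih2 => exact ih1.add ih2
  | mul _ _ ih1 ih2 => exact VF.mul hn ih1 ih2

end Crest.Agent.R323
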